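import Mathlib

/-! Cochains on lists: coboundary, barycentric subdivision, prism operator. -/

namespace Vale.Agent.P184

open List

variable {X Y : Type*}

/-- Coboundary of a list cochain. -/
def del : (List X → ℝ) → List X → ℝ
  | _, [] => 0
  | F, a :: l => F l - del (fun l' => F (a :: l')) l

@[simp] theorem del_nil (F : List X → ℝ) : del F [] = 0 := rfl

theorem del_cons (F : List X → ℝ) (a : X) (l : List X) :
    del F (a :: l) = F l - del (fun l' => F (a :: l')) l := rfl

theorem del_congr {F F' : List X → ℝ} {l : List X}
    (h : ∀ l', l' <+ l → l'.length + 1 = l.length → F l' = F' l') : del F l = del F' l := by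
  induction l generalizing F F' with
  | nil => rfl
  | cons a l ih =>
    rw [del_cons, del_cons, h l (sublist_cons_self a l) rfl]
    congr 1
    apply ih
    intro l' h1 h2
    exact h _ (h1.cons_cons a) (by simp [h2])

theorem del_sub (F F' : List X → ℝ) (l : List X) :
    del (fun l => F l - F' l) l = del F l - del F' l := by
  induction l generalizing F F' with
  | nil => simp
  | cons a l ih =>
    simp only [del_cons]
    rw [ih (fun l' => F (a :: l')) (fun l' => F' (a :: l'))]
    ring

theorem del_mul (c : ℝ) (F : List X → ℝ) (l : List X) :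
    del (fun l => c * F l) l = c * del F l := by
  induction l generalizing F with
  | nil => simp
  | cons a l ih =>
    simp only [del_cons]
    rw [ih (fun l' => F (a :: l'))]
    ring

theorem del_zero (l : List X) : del (fun _ => (0 : ℝ)) l = 0 := by
  have := del_mul (X := X) 0 (fun _ => 0) l
  simpa using this

theorem del_del (F : List X → ℝ) (l : List X) : del (del F) l = 0 := by
  induction l generalizing F with
  | nil => rfl
  | cons a l ih =>
    rw [del_cons]
    have : (fun l' => del F (a :: l')) = fun l' => F l' - del (fun l'' => F (a :: l'')) l' := rfl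
    rw [this, del_sub, ih]
    ring

theorem del_snoc (F : List X → ℝ) (l : List X) (a : X) :
    del F (l ++ [a]) = del (fun l' => F (l' ++ [a])) l + (-1) ^ l.length * F l := by
  induction l generalizing F with
  | nil => simp [del_cons]
  | cons b l ih =>
    rw [cons_append, del_cons, ih, del_cons, length_cons, pow_succ]
    simp only [cons_append]
    ring

theorem del_cyc {F : List X → ℝ} {l : List X} {a a' : X}
    (h : ∀ l' : List X, l'.length + 1 = l.length → F (l' ++ [a']) = (-1) ^ l'.length * F (a :: l')) :
    del F (l ++ [a']) = (-1) ^ l.length * del F (a :: l) := by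
  rw [del_snoc, del_cons]
  cases l with
  | nil => simp
  | cons b l =>
    have : del (fun l' => F (l' ++ [a'])) (b :: l)
        = del (fun l' => (-1) ^ l.length * F (a :: l')) (b :: l) := by
      apply del_congr
      intro l' _ h2
      rw [h l' h2]
      simp only [length_cons, add_left_inj] at h2
      rw [h2]
    rw [this, del_mul, length_cons, pow_succ]
    ring

theorem del_map (γ : X → Y) (F : List Y → ℝ) (l : List X) :
    del F (l.map γ) = del (fun l' => F (l'.map γ)) l := by
  induction l generalizing F with
  | nil => rfl
  | cons a l ih =>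
    rw [map_cons, del_cons, del_cons, ih]
    simp only [map_cons]

/-! ### Subdivision -/

/-- Auxiliary recursion for the subdivision operator. -/
def sdA (b : List X → X) : ℕ → (List X → ℝ) → List X → ℝ
  | 0, β, l => β l
  | n + 1, β, l => del (sdA b n (fun l' => β (b l :: l'))) l

/-- The dual of barycentric subdivision. -/
def sd (b : List X → X) (β : List X → ℝ) (l : List X) : ℝ := sdA b l.length β l

@[simp] theorem sd_nil (b : List X → X) (β : List X → ℝ) : sd b β [] = β [] := rfl

theorem sd_of_length (b : List X → X) (β : List X → ℝ) {l : List X} {n : ℕ}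
    (h : l.length = n + 1) : sd b β l = del (sd b (fun l' => β (b l :: l'))) l := by
  unfold sd
  rw [h, sdA]
  apply del_congr
  intro l' _ h2
  have : l'.length = n := by omega
  rw [this]

/-- Flags of faces: the small simplices of the subdivision. -/
inductive Flag (b : List X → X) : List X → List X → Prop
  | nil : Flag b [] []
  | cons {l' l₀ l : List X} : Flag b l' l₀ → l₀ <+ l → l₀.length + 1 = l.length →
      Flag b (b l :: l') l

theorem sd_congr (b : List X → X) {β β' : List X → ℝ} {l : List X}
    (h : ∀ l', Flag b l' l → β l' = β' l') : sd b β l = sd b β' l := by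
  induction hn : l.length generalizing l β β' with
  | zero =>
    rw [length_eq_zero_iff] at hn
    subst hn
    simpa using h [] Flag.nil
  | succ n ih =>
    rw [sd_of_length b β hn, sd_of_length b β' hn]
    apply del_congr
    intro l₀ h1 h2
    apply ih _ (by omega)
    intro l' h3
    exact h _ (Flag.cons h3 h1 h2)

theorem sd_sub (b : List X → X) (β β' : List X → ℝ) (l : List X) :
    sd b (fun l => β l - β' l) l = sd b β l - sd b β' l := by
  induction hn : l.length generalizing l β β' with
  | zero =>
    rw [length_eq_zero_iff] at hn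
    subst hn
    simp
  | succ n ih =>
    rw [sd_of_length b _ hn, sd_of_length b β hn, sd_of_length b β' hn, ← del_sub]
    apply del_congr
    intro l₀ _ h2
    exact ih (fun l' => β (b l :: l')) (fun l' => β' (b l :: l')) l₀ (by omega)

theorem sd_zero (b : List X → X) (l : List X) : sd b (fun _ => (0 : ℝ)) l = 0 := by
  have := sd_sub b (fun _ => 0) (fun _ => 0) l
  simpa using this

theorem sd_del (b : List X → X) (β : List X → ℝ) (l : List X) :
    sd b (del β) l = del (sd b β) l := by
  induction hn : l.length generalizing l β with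
  | zero =>
    rw [length_eq_zero_iff] at hn
    subst hn
    simp
  | succ n ih =>
    rw [sd_of_length b _ hn]
    have : del (sd b fun l' => del β (b l :: l')) l
        = del (fun l₀ => sd b β l₀ - del (sd b (fun l'' => β (b l :: l''))) l₀) l := by
      apply del_congr
      intro l₀ _ h2
      rw [← ih _ l₀ (by omega), ← sd_sub]
      rfl
    rw [this, del_sub, del_del, sub_zero]

theorem sd_cyc (b : List X → X) (hb : ∀ a l, b (l ++ [a]) = b (a :: l)) (β : List X → ℝ)
    (l : List X) (a : X) : sd b β (l ++ [a]) = (-1) ^ l.length * sd b β (a :: l) := by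
  induction hn : l.length using Nat.strong_induction_on generalizing l β with
  | _ n ih =>
    rw [sd_of_length b β (l := l ++ [a]) (n := n) (by simp [hn]),
      sd_of_length b β (l := a :: l) (n := n) (by simp [hn]), hb, ← hn]
    apply del_cyc
    intro l' h
    exact ih l'.length (by omega) _ l' rfl

theorem sd_map (b : List X → X) (b' : List Y → Y) (γ : X → Y)
    (hγ : ∀ l, l ≠ [] → b' (l.map γ) = γ (b l)) (β : List Y → ℝ) (l : List X) :
    sd b' β (l.map γ) = sd b (fun l' => β (l'.map γ)) l := by
  induction hn : l.length generalizing l β with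
  | zero =>
    rw [length_eq_zero_iff] at hn
    subst hn
    simp
  | succ n ih =>
    rw [sd_of_length b' β (l := l.map γ) (n := n) (by simp [hn]), sd_of_length b _ hn, del_map,
      hγ l (by rintro rfl; simp at hn)]
    apply del_congr
    intro l₀ _ h2
    rw [ih _ l₀ (by omega)]
    simp only [map_cons]

/-! ### Prism -/

/-- The prism operator between the identity and `Λ`. -/
def pr (Λ : X → X) : (List X → ℝ) → List X → ℝ
  | _, [] => 0
  | φ, a :: l => φ (a :: Λ a :: l.map Λ) - pr Λ (fun l' => φ (a :: l')) l

@[simp] theorem pr_nil (Λ : X → X) (φ : List X → ℝ) : pr Λ φ [] = 0 := rfl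

theorem pr_cons (Λ : X → X) (φ : List X → ℝ) (a : X) (l : List X) :
    pr Λ φ (a :: l) = φ (a :: Λ a :: l.map Λ) - pr Λ (fun l' => φ (a :: l')) l := rfl

theorem pr_sub (Λ : X → X) (φ φ' : List X → ℝ) (l : List X) :
    pr Λ (fun l => φ l - φ' l) l = pr Λ φ l - pr Λ φ' l := by
  induction l generalizing φ φ' with
  | nil => simp
  | cons a l ih =>
    simp only [pr_cons]
    rw [ih (fun l' => φ (a :: l')) (fun l' => φ' (a :: l'))]
    ring

theorem pr_zero (Λ : X → X) (l : List X) : pr Λ (fun _ => (0 : ℝ)) l = 0 := by
  have := pr_sub Λ (fun _ => 0) (fun _ => 0) l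
  simpa using this

theorem del_pr (Λ : X → X) (φ : List X → ℝ) (l : List X) :
    del (pr Λ φ) l + pr Λ (del φ) l = φ (l.map Λ) - φ l := by
  induction l generalizing φ with
  | nil => simp
  | cons a l ih =>
    have h1 : (fun l' => pr Λ φ (a :: l'))
        = fun l' => φ (a :: Λ a :: l'.map Λ) - pr Λ (fun l'' => φ (a :: l'')) l' := rfl
    have h2 : (fun l' => del φ (a :: l'))
        = fun l' => φ l' - del (fun l'' => φ (a :: l'')) l' := rfl
    have h3 := ih (fun l'' => φ (a :: l''))
    have h4 := del_map Λ (fun l' => φ (a :: Λ a :: l')) l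
    rw [del_cons, pr_cons, h1, h2, del_sub, pr_sub, del_cons, del_cons, ← h4, map_cons]
    linarith

theorem pr_map (Λ : X → X) (Λ' : Y → Y) (γ : X → Y) (h : ∀ x, Λ' (γ x) = γ (Λ x))
    (φ : List Y → ℝ) (l : List X) :
    pr Λ' φ (l.map γ) = pr Λ (fun l' => φ (l'.map γ)) l := by
  induction l generalizing φ with
  | nil => rfl
  | cons a l ih =>
    rw [map_cons, pr_cons, pr_cons, ih]
    simp only [map_cons, map_map, h]
    congr 4
    apply map_congr_left
    intro x _
    simp [h]

theorem pr_congr {Λ Λ' : X → X} (φ : List X → ℝ) {l : List X} (h : ∀ x ∈ l, Λ x = Λ' x) :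
    pr Λ φ l = pr Λ' φ l := by
  induction l generalizing φ with
  | nil => rfl
  | cons a l ih =>
    rw [pr_cons, pr_cons, h a (by simp), ih _ (fun x hx => h x (by simp [hx])),
      map_congr_left (fun x hx => h x (by simp [hx]))]

/-! ### Iterated subdivision -/

/-- Iterated subdivision. -/
def sdN (b : List X → X) : ℕ → (List X → ℝ) → List X → ℝ
  | 0, β => β
  | r + 1, β => sd b (sdN b r β)

theorem sdN_sub (b : List X → X) (r : ℕ) (β β' : List X → ℝ) (l : List X) :
    sdN b r (fun l => β l - β' l) l = sdN b r β l - sdN b r β' l := by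
  induction r generalizing l with
  | zero => rfl
  | succ r ih =>
    simp only [sdN]
    rw [← sd_sub]
    congr 1
    funext l'
    exact ih l'

theorem sdN_del (b : List X → X) (r : ℕ) (β : List X → ℝ) (l : List X) :
    sdN b r (del β) l = del (sdN b r β) l := by
  induction r generalizing l with
  | zero => rfl
  | succ r ih =>
    simp only [sdN]
    rw [← sd_del]
    congr 1
    funext l'
    exact ih l'

theorem sdN_map (b : List X → X) (b' : List Y → Y) (γ : X → Y)
    (hγ : ∀ l, l ≠ [] → b' (l.map γ) = γ (b l)) (r : ℕ) (β : List Y → ℝ) (l : List X) :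
    sdN b' r β (l.map γ) = sdN b r (fun l' => β (l'.map γ)) l := by
  induction r generalizing l with
  | zero => rfl
  | succ r ih =>
    simp only [sdN]
    rw [sd_map b b' γ hγ]
    congr 1
    funext l'
    exact ih l'

/-- Iterated flags. -/
def FlagN (b : List X → X) : ℕ → List X → List X → Prop
  | 0, l', l => l' = l
  | r + 1, l', l => ∃ l₁, Flag b l₁ l ∧ FlagN b r l' l₁

theorem sdN_congr (b : List X → X) (r : ℕ) {β β' : List X → ℝ} {l : List X}
    (h : ∀ l', FlagN b r l' l → β l' = β' l') : sdN b r β l = sdN b r β' l := by
  induction r generalizing l with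
  | zero => exact h l rfl
  | succ r ih =>
    simp only [sdN]
    apply sd_congr
    intro l₁ h1
    exact ih (fun l' h2 => h l' ⟨l₁, h1, h2⟩)

theorem sdN_zero (b : List X → X) (r : ℕ) (l : List X) : sdN b r (fun _ => (0 : ℝ)) l = 0 := by
  have := sdN_sub b r (fun _ => 0) (fun _ => 0) l
  simpa using this

/-! ### Integrability -/

open MeasureTheory

variable {Ω : Type*} [MeasurableSpace Ω] {μ : Measure Ω}

theorem integrable_del {F : Ω → List X → ℝ} (h : ∀ l, Integrable (fun ω => F ω l) μ)
    (l : List X) : Integrable (fun ω => del (F ω) l) μ := by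
  induction l generalizing F with
  | nil => simp
  | cons a l ih =>
    simp only [del_cons]
    exact (h l).sub (ih (F := fun ω l' => F ω (a :: l')) (fun l' => h _))

theorem integral_del {F : Ω → List X → ℝ} (h : ∀ l, Integrable (fun ω => F ω l) μ)
    (l : List X) : ∫ ω, del (F ω) l ∂μ = del (fun l' => ∫ ω, F ω l' ∂μ) l := by
  induction l generalizing F with
  | nil => simp
  | cons a l ih =>
    simp only [del_cons]
    rw [integral_sub (h l) (integrable_del (F := fun ω l' => F ω (a :: l')) (fun l' => h _) l),
      ih (F := fun ω l' => F ω (a :: l')) (fun l' => h _)]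

theorem integrable_sd (b : List X → X) {F : Ω → List X → ℝ}
    (h : ∀ l, Integrable (fun ω => F ω l) μ) (l : List X) :
    Integrable (fun ω => sd b (F ω) l) μ := by
  suffices H : ∀ n (F : Ω → List X → ℝ), (∀ l, Integrable (fun ω => F ω l) μ) →
      ∀ l, Integrable (fun ω => sdA b n (F ω) l) μ from H _ F h l
  intro n
  induction n with
  | zero => intro F h l; exact h l
  | succ n ih =>
    intro F h l
    simp only [sdA]
    exact integrable_del (F := fun ω => sdA b n (fun l' => F ω (b l :: l')))
      (ih (fun ω l' => F ω (b l :: l')) (fun l' => h _)) l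

theorem integrable_sdN (b : List X → X) (r : ℕ) {F : Ω → List X → ℝ}
    (h : ∀ l, Integrable (fun ω => F ω l) μ) (l : List X) :
    Integrable (fun ω => sdN b r (F ω) l) μ := by
  induction r generalizing l with
  | zero => exact h l
  | succ r ih => exact integrable_sd b (F := fun ω => sdN b r (F ω)) ih l

end Vale.Agent.P184
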