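import Vale.Agent.P184.Cochain

/-! The cyclic functionals attached to an idempotent. -/

namespace Vale.Agent.P184

open List Filter Topology

variable {G : Type*} [Group G] {n : Type*} [Fintype n] [DecidableEq n]

/-- Path sums: `k` steps starting at `y`; `Φ` sees the vertices and the end point. -/
noncomputable def ps (e : G → Matrix n n ℂ) (S : Finset G) :
    ℕ → G → (List G → G → ℝ) → Matrix n n ℂ
  | 0, y, Φ => Φ [] y • (1 : Matrix n n ℂ)
  | k + 1, y, Φ => ∑ a ∈ S, e a * ps e S k (y * a) (fun l z => Φ (y :: l) z)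

/-- Walks with steps in `S`. -/
def Walk (S : Finset G) : ℕ → G → List G → Prop
  | 0, _, l => l = []
  | k + 1, y, l => ∃ a ∈ S, ∃ l', l = y :: l' ∧ Walk S k (y * a) l'

variable {e : G → Matrix n n ℂ} {S : Finset G}

theorem ps_zero (y : G) (Φ : List G → G → ℝ) : ps e S 0 y Φ = Φ [] y • (1 : Matrix n n ℂ) := rfl

theorem ps_succ (k : ℕ) (y : G) (Φ : List G → G → ℝ) :
    ps e S (k + 1) y Φ = ∑ a ∈ S, e a * ps e S k (y * a) (fun l z => Φ (y :: l) z) := rfl

theorem ps_congr {k : ℕ} {y : G} {Φ Φ' : List G → G → ℝ}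
    (h : ∀ l z, l.length = k → Φ l z = Φ' l z) : ps e S k y Φ = ps e S k y Φ' := by
  induction k generalizing y Φ Φ' with
  | zero => simp only [ps_zero, h [] y rfl]
  | succ k ih =>
    simp only [ps_succ]
    refine Finset.sum_congr rfl fun a _ => ?_
    rw [ih (Φ' := fun l z => Φ' (y :: l) z)]
    intro l z hl
    exact h _ _ (by simp [hl])

theorem ps_lin (c c' : ℝ) (k : ℕ) (y : G) (Φ Φ' : List G → G → ℝ) :
    ps e S k y (fun l z => c * Φ l z + c' * Φ' l z) = c • ps e S k y Φ + c' • ps e S k y Φ' := by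
  induction k generalizing y Φ Φ' with
  | zero => simp only [ps_zero, add_smul, mul_smul]
  | succ k ih =>
    simp only [ps_succ]
    rw [Finset.smul_sum, Finset.smul_sum, ← Finset.sum_add_distrib]
    refine Finset.sum_congr rfl fun a _ => ?_
    rw [ih (y * a) (fun l z => Φ (y :: l) z) (fun l z => Φ' (y :: l) z), mul_add,
      mul_smul_comm, mul_smul_comm]

theorem ps_sub (k : ℕ) (y : G) (Φ Φ' : List G → G → ℝ) :
    ps e S k y (fun l z => Φ l z - Φ' l z) = ps e S k y Φ - ps e S k y Φ' := by
  have := ps_lin (e := e) (S := S) 1 (-1) k y Φ Φ'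
  simpa [sub_eq_add_neg] using this

theorem ps_zero_fun (k : ℕ) (y : G) : ps e S k y (fun _ _ => 0) = 0 := by
  have := ps_sub (e := e) (S := S) k y (fun _ _ => 0) (fun _ _ => 0)
  simpa using this

theorem ps_transl (k : ℕ) (x y : G) (Φ : List G → G → ℝ) :
    ps e S k (x * y) Φ = ps e S k y (fun l z => Φ (l.map (x * ·)) (x * z)) := by
  induction k generalizing y Φ with
  | zero => rfl
  | succ k ih =>
    simp only [ps_succ]
    refine Finset.sum_congr rfl fun a _ => ?_
    rw [mul_assoc, ih]
    simp only [map_cons]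

theorem ps_snoc (k : ℕ) (y : G) (Φ : List G → G → ℝ) :
    ps e S (k + 1) y Φ = ∑ a ∈ S, ps e S k y (fun l z => Φ (l ++ [z]) (z * a)) * e a := by
  induction k generalizing y Φ with
  | zero => simp [ps_succ, ps_zero]
  | succ k ih =>
    rw [ps_succ]
    simp only [fun a => ih (y * a), Finset.mul_sum]
    rw [Finset.sum_comm]
    refine Finset.sum_congr rfl fun a _ => ?_
    rw [ps_succ, Finset.sum_mul]
    refine Finset.sum_congr rfl fun b _ => ?_
    simp only [mul_assoc, cons_append]

theorem ps_tendsto {k : ℕ} {y : G} {Φ : ℕ → List G → G → ℝ} {Ψ : List G → G → ℝ}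
    (h : ∀ l z, Walk S k y l → Tendsto (fun s => Φ s l z) atTop (𝓝 (Ψ l z))) :
    Tendsto (fun s => ps e S k y (Φ s)) atTop (𝓝 (ps e S k y Ψ)) := by
  induction k generalizing y Φ Ψ with
  | zero => exact (h [] y rfl).smul_const _
  | succ k ih =>
    simp only [ps_succ]
    refine tendsto_finsetSum _ fun a ha => Tendsto.const_mul _ ?_
    exact ih (Φ := fun s l z => Φ s (y :: l) z) fun l z hl => h _ _ ⟨a, ha, l, rfl, hl⟩

theorem Walk.map_mul {k : ℕ} {y : G} {l : List G} (h : Walk S k y l) (x : G) :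
    Walk S k (x * y) (l.map (x * ·)) := by
  induction k generalizing y l with
  | zero => simp only [Walk] at h ⊢; simp [h]
  | succ k ih =>
    obtain ⟨a, ha, l', rfl, h'⟩ := h
    exact ⟨a, ha, l'.map (x * ·), rfl, by simpa [mul_assoc] using ih h'⟩

/-- The merging identity coming from idempotency. -/
def Merge (e : G → Matrix n n ℂ) (S : Finset G) : Prop :=
  ∀ f : G → Matrix n n ℂ, ∑ a ∈ S, e a * ∑ b ∈ S, e b * f (a * b) = ∑ h ∈ S, e h * f h

theorem ps_dropLast (hm : Merge e S) (k : ℕ) (y : G) (Φ : List G → G → ℝ) :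
    ps e S (k + 2) y (fun l z => Φ l.dropLast z) = ps e S (k + 1) y Φ := by
  induction k generalizing y Φ with
  | zero =>
    simp only [ps_succ, ps_zero, mul_assoc]
    simpa using hm (fun h => Φ [y] (y * h) • 1)
  | succ k ih =>
    rw [ps_succ, ps_succ (k + 1)]
    refine Finset.sum_congr rfl fun a _ => ?_
    rw [← ih]
    refine congrArg (e a * ·) (ps_congr ?_)
    intro l z hl
    rw [dropLast_cons_of_ne_nil (by rintro rfl; simp at hl)]

theorem ps_del (hm : Merge e S) (k : ℕ) (y : G) (Φ : List G → G → ℝ) :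
    ∑ a ∈ S, e a * ps e S (k + 1) (y * a) (fun l z => del (fun l' => Φ l' z) l)
      = (if Even k then (1 : ℝ) else 0) • ∑ a ∈ S, e a * ps e S k (y * a) Φ := by
  induction k generalizing y Φ with
  | zero =>
    simp only [ps_succ, ps_zero, del_cons, del_nil, mul_assoc]
    simpa using hm (fun h => Φ [] (y * h) • 1)
  | succ k ih =>
    have h1 : ∀ a, ps e S (k + 2) (y * a) (fun l z => del (fun l' => Φ l' z) l)
        = ∑ b ∈ S, e b * ps e S (k + 1) (y * (a * b)) Φ
          - (if Even k then (1 : ℝ) else 0) • ps e S (k + 1) (y * a) Φ := by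
      intro a
      rw [ps_succ (k + 1), ps_succ k (y * a) Φ, ← ih, ← Finset.sum_sub_distrib]
      refine Finset.sum_congr rfl fun b _ => ?_
      rw [← mul_sub, ← mul_assoc y, ← ps_sub]
      rfl
    simp only [h1, mul_sub, Finset.sum_sub_distrib]
    rw [hm (fun h => ps e S (k + 1) (y * h) Φ)]
    by_cases hk : Even k
    · simp [hk, Nat.even_add_one]
    · simp [hk, Nat.even_add_one]

open Classical in
/-- Transport a cochain to loops closing up in the conjugacy class of `g`. -/
noncomputable def lift (g : G) (F : List G → ℝ) (l : List G) (z : G) : ℝ :=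
  if h : ∃ x, x * z * x⁻¹ = g then F (l.map (h.choose * ·)) else 0

/-- The functional on cochains of lists of length `k + 1`. -/
noncomputable def LL (e : G → Matrix n n ℂ) (S : Finset G) (g : G) (k : ℕ) (F : List G → ℝ) : ℂ :=
  (ps e S (k + 1) 1 (lift g F)).trace

/-- Invariance under the centraliser of `g`. -/
def Inv (g : G) (F : List G → ℝ) : Prop :=
  ∀ ν, ν * g = g * ν → ∀ l : List G, F (l.map (ν * ·)) = F l

variable {g : G}

theorem lift_eq {F : List G → ℝ} (hF : Inv g F) (l : List G) {z x : G} (hx : x * z * x⁻¹ = g) :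
    lift g F l z = F (l.map (x * ·)) := by
  have h : ∃ x, x * z * x⁻¹ = g := ⟨x, hx⟩
  have h' := h.choose_spec
  rw [lift, dif_pos h]
  generalize h.choose = x' at h'
  have hν : x' * x⁻¹ * g = g * (x' * x⁻¹) := by
    conv_lhs => rw [← hx]
    conv_rhs => rw [← h']
    group
  rw [← hF _ hν (l.map (x * ·)), List.map_map]
  congr 2
  funext y
  simp [mul_assoc]

theorem LL_congr {k : ℕ} {F F' : List G → ℝ} (h : ∀ l, l.length = k + 1 → F l = F' l) :
    LL e S g k F = LL e S g k F' := by
  unfold LL
  congr 1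
  apply ps_congr
  intro l z hl
  unfold lift
  split_ifs
  · exact h _ (by simp [hl])
  · rfl

theorem LL_lin (c c' : ℝ) (k : ℕ) (F F' : List G → ℝ) :
    LL e S g k (fun l => c * F l + c' * F' l) = c * LL e S g k F + c' * LL e S g k F' := by
  unfold LL
  have : lift g (fun l => c * F l + c' * F' l)
      = fun l z => c * lift g F l z + c' * lift g F' l z := by
    funext l z
    unfold lift
    split_ifs <;> simp
  rw [this, ps_lin]
  simp

theorem LL_rot {k : ℕ} {F F' : List G → ℝ} (hF' : Inv g F')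
    (h : ∀ x l, l.length = k → F (x :: l) = F' (l ++ [g * x])) :
    LL e S g k F = LL e S g k F' := by
  unfold LL
  rw [ps_snoc k 1 (lift g F'), ps_succ, Matrix.trace_sum, Matrix.trace_sum]
  refine Finset.sum_congr rfl fun a _ => ?_
  rw [Matrix.trace_mul_comm, one_mul]
  have := ps_transl (e := e) (S := S) k a 1 (fun l z => lift g F (1 :: l) z)
  rw [mul_one] at this
  rw [this]
  congr 2
  apply ps_congr
  intro l z hl
  by_cases hx : ∃ x, x * (a * z) * x⁻¹ = g
  · have h' := hx.choose_spec
    rw [lift, dif_pos hx]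
    generalize hx.choose = x at h'
    rw [lift_eq hF' _ (x := x * a) (by rw [← h']; group), map_cons, h _ _ (by simp [hl])]
    congr 1
    rw [map_append, List.map_map]
    congr 1
    · apply map_congr_left
      intro y _
      simp [mul_assoc]
    · rw [← h']
      simp [mul_assoc]
  · rw [lift, dif_neg hx, lift, dif_neg]
    rintro ⟨x, hx'⟩
    exact hx ⟨x * a⁻¹, by rw [← hx']; group⟩

theorem LL_tail (hm : Merge e S) {k : ℕ} {β : List G → ℝ} (hβ : Inv g β) :
    LL e S g (k + 1) (fun l => β l.tail) = LL e S g k β := by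
  rw [LL_rot (F' := fun l => β l.dropLast)]
  · unfold LL
    rw [← ps_dropLast hm k 1 (lift g β)]
    congr 2
    funext l z
    unfold lift
    split_ifs
    · simp
    · rfl
  · intro ν hν l
    have := hβ ν hν l.dropLast
    simpa using this
  · intro x l _
    simp

theorem LL_del (hm : Merge e S) {k : ℕ} {β : List G → ℝ} (hβ : Inv g β) :
    LL e S g (k + 1) (del β) = if Even k then 0 else LL e S g k β := by
  have h1 : ps e S (k + 2) 1 (lift g (del β)) = ps e S (k + 2) 1 (lift g (fun l => β l.tail))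
      - (if Even k then (1 : ℝ) else 0) • ps e S (k + 1) 1 (lift g β) := by
    rw [ps_succ k 1 (lift g β), ← ps_del hm, ps_succ (k + 1), ps_succ (k + 1),
      ← Finset.sum_sub_distrib]
    refine Finset.sum_congr rfl fun a _ => ?_
    rw [← mul_sub, ← ps_sub]
    congr 2
    funext l z
    unfold lift
    split_ifs
    · simp only [map_cons, del_cons, tail_cons, del_map]
    · simp [del_zero]
  have h2 := LL_tail (e := e) hm (k := k) hβ
  unfold LL at h2 ⊢
  rw [h1, Matrix.trace_sub, h2]
  split_ifs <;> simp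

/-- Coboundaries of invariant cyclic cochains are killed in even degree. -/
theorem LL_del_cyc (hm : Merge e S) {k : ℕ} (hk : ¬ Even k) {β : List G → ℝ} (hβ : Inv g β)
    (hc : ∀ x l, β (l ++ [g * x]) = (-1) ^ l.length * β (x :: l)) :
    LL e S g (k + 1) (del β) = 0 := by
  rw [LL_del hm hβ, if_neg hk]
  have h1 : LL e S g k (fun l => (-1) * β l + 0 * β l) = LL e S g k β := by
    apply LL_rot hβ
    intro x l hl
    rw [hc, hl, (Nat.not_even_iff_odd.1 hk).neg_one_pow]
    ring
  rw [LL_lin] at h1
  simp only [Complex.ofReal_neg, Complex.ofReal_one, Complex.ofReal_zero] at h1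
  linear_combination (-1 / 2 : ℂ) * h1

theorem LL_tendsto {k : ℕ} {F : ℕ → List G → ℝ} {F' : List G → ℝ}
    (h : ∀ x l, Walk S (k + 1) x l → Tendsto (fun s => F s l) atTop (𝓝 (F' l))) :
    Tendsto (fun s => LL e S g k (F s)) atTop (𝓝 (LL e S g k F')) := by
  unfold LL
  have hc : Continuous (fun M : Matrix n n ℂ => M.trace) := continuous_id.matrix_trace
  refine (hc.tendsto _).comp (ps_tendsto (S := S) (k := k + 1) (Φ := fun s => lift g (F s)) ?_)
  intro l z hl
  unfold lift
  split_ifs with hx
  · exact h _ _ (hl.map_mul _)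
  · exact tendsto_const_nhds

open Classical in
theorem LL_zero (F : List G → ℝ) (hF : ∀ x, F [x] = 1) :
    LL e S g 0 F = ∑ a ∈ S with ∃ x, x * a * x⁻¹ = g, (e a).trace := by
  unfold LL
  rw [ps_succ, Matrix.trace_sum, Finset.sum_filter]
  refine Finset.sum_congr rfl fun a _ => ?_
  rw [ps_zero, one_mul]
  unfold lift
  split_ifs <;> simp [hF]

end Vale.Agent.P184
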