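import Vale.Agent.P184.Pfaff
import Vale.Agent.P184.Trace

/-! The Euler-type cocycle on the coset space of an infinite cyclic subgroup. -/

namespace Vale.Agent.P184

open List

variable {G : Type*} [Group G]

/-- Orbits of left multiplication by powers of `g`. -/
def cyc (g : G) : Setoid G where
  r x y := ∃ k : ℤ, y = g ^ k * x
  iseqv := ⟨fun x => ⟨0, by simp⟩, fun ⟨k, h⟩ => ⟨-k, by simp [h]⟩,
    fun ⟨k, h⟩ ⟨j, h'⟩ => ⟨j + k, by rw [h', h, zpow_add, mul_assoc]⟩⟩

/-- Orbits of left multiplication by the centraliser of `g`. -/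
def cen (g : G) : Setoid G where
  r x y := y * x⁻¹ * g = g * (y * x⁻¹)
  iseqv := ⟨fun x => by simp, fun {x y} h => by
      calc x * y⁻¹ * g = (y * x⁻¹)⁻¹ * (g * (y * x⁻¹)) * (y * x⁻¹)⁻¹ := by group
        _ = g * (x * y⁻¹) := by rw [← h]; group,
    fun {x y z} h h' => by
      calc z * x⁻¹ * g = z * y⁻¹ * (y * x⁻¹ * g) := by group
        _ = (z * y⁻¹ * g) * (y * x⁻¹) := by rw [h]; group
        _ = g * (z * x⁻¹) := by rw [h']; group⟩

/-- The coset space. -/
abbrev VV (g : G) := Quotient (cyc g)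

/-- The projection to the coset space. -/
def pj (g : G) (x : G) : VV g := Quotient.mk _ x

theorem pj_eq {g x y : G} : pj g x = pj g y ↔ ∃ k : ℤ, y = g ^ k * x := Quotient.eq

theorem pj_out (g : G) (v : VV g) : pj g v.out = v := Quotient.out_eq v

theorem pj_g (g x : G) : pj g (g * x) = pj g x := (pj_eq.2 ⟨1, by simp⟩).symm

theorem exists_height {g : G} (hg : ¬ IsOfFinOrder g) :
    ∃ H : G → ℤ, ∀ (j : ℤ) x, H (g ^ j * x) = H x + j := by
  have h1 : ∀ x, ∃ k : ℤ, x = g ^ k * (pj g x).out := fun x => pj_eq.1 (pj_out g _)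
  choose H hH using h1
  refine ⟨H, fun j x => ?_⟩
  have h2 : pj g (g ^ j * x) = pj g x := (pj_eq.2 ⟨j, rfl⟩).symm
  have h3 := hH (g ^ j * x)
  rw [h2] at h3
  apply injective_zpow_iff_not_isOfFinOrder.2 hg
  have h4 : g ^ j * x = g ^ (H x + j) * (pj g x).out := by
    conv_lhs => rw [hH x]
    rw [add_comm, zpow_add, mul_assoc]
  exact mul_right_cancel (h3.symm.trans h4)

theorem exists_c0 {g : G} (hg : ¬ IsOfFinOrder g) :
    ∃ c : G → G → ℝ, (∀ ν, ν * g = g * ν → ∀ x y, c (ν * x) (ν * y) = c x y) ∧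
      ∀ (j : ℤ) x y, c x (g ^ j * y) = c x y + j := by
  obtain ⟨H, hH⟩ := exists_height hg
  refine ⟨fun x y => H ((Quotient.mk (cen g) x).out * x⁻¹ * y), fun ν hν x y => ?_,
    fun j x y => ?_⟩
  · have : Quotient.mk (cen g) (ν * x) = Quotient.mk (cen g) x := by
      symm
      apply Quotient.sound
      change ν * x * x⁻¹ * g = g * (ν * x * x⁻¹)
      simpa using hν
    simp only [this]
    congr 2
    group
  · have h1 : (cen g).r x (Quotient.mk (cen g) x).out :=
      (cen g).symm (Quotient.mk_out (s := cen g) x)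
    have h2 : Commute ((Quotient.mk (cen g) x).out * x⁻¹) g := h1
    have h3 := (h2.zpow_right j).eq
    simp only
    rw [← mul_assoc, h3, mul_assoc, hH]
    push_cast
    rfl

/-- The augmentation. -/
noncomputable def eps (V : Type*) : Module.Dual ℝ (V →₀ ℝ) :=
  Finsupp.linearCombination ℝ (fun _ => (1 : ℝ))

@[simp] theorem eps_single {V : Type*} (x : V) (r : ℝ) : eps V (Finsupp.single x r) = r := by
  simp [eps]

theorem eps_comp {V W : Type*} (f : V → W) : eps W ∘ₗ Finsupp.lmapDomain ℝ ℝ f = eps V := by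
  ext x
  simp

theorem exists_form {g : G} (hg : ¬ IsOfFinOrder g) :
    ∃ B : LinearMap.BilinForm ℝ (G →₀ ℝ), (∀ u, B u u = 0) ∧
      (∀ ν, ν * g = g * ν → ∀ a, B a = B (Finsupp.lmapDomain ℝ ℝ (ν * ·) a) ∘ₗ
        Finsupp.lmapDomain ℝ ℝ (ν * ·)) ∧
      ∀ (j : ℤ) x, B (Finsupp.single (g ^ j * x) 1)
        = B (Finsupp.single x 1) + (-2 * j : ℝ) • eps G := by
  obtain ⟨c, hc1, hc2⟩ := exists_c0 hg
  have hc3 : ∀ (j : ℤ) x y, c (g ^ j * x) y = c x y - j := by
    intro j x y
    have h1 := hc1 (g ^ j) (by group) x (g ^ (-j) * y)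
    rw [hc2 (-j) x y] at h1
    simpa [sub_eq_add_neg] using h1
  let B0 : LinearMap.BilinForm ℝ (G →₀ ℝ) :=
    Finsupp.linearCombination ℝ (fun x => Finsupp.linearCombination ℝ (c x))
  have hB0 : ∀ x y, B0 (Finsupp.single x 1) (Finsupp.single y 1) = c x y := by
    intro x y
    simp [B0]
  refine ⟨B0 - B0.flip, fun u => by simp, fun ν hν a => ?_, fun j x => ?_⟩
  · suffices H : (B0 - B0.flip) = (B0 - B0.flip).compl₁₂ (Finsupp.lmapDomain ℝ ℝ (ν * ·))
        (Finsupp.lmapDomain ℝ ℝ (ν * ·)) by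
      conv_lhs => rw [H]
      rfl
    ext x y
    simp [hB0, hc1 ν hν]
  · ext y
    simp [hB0, hc2, hc3]
    ring

/-- The permutation of the coset space induced by an element of the centraliser. -/
def act (g ν : G) (hν : ν * g = g * ν) : VV g ≃ VV g where
  toFun := Quotient.map (ν * ·) fun x y ⟨k, h⟩ => ⟨k, by
    rw [h, ← mul_assoc, ← mul_assoc, ((show Commute ν g from hν).zpow_right k).eq]⟩
  invFun := Quotient.map (ν⁻¹ * ·) fun x y ⟨k, h⟩ => ⟨k, by
    rw [h, ← mul_assoc, ← mul_assoc, ((show Commute ν g from hν).inv_left.zpow_right k).eq]⟩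
  left_inv v := by
    induction v using Quotient.inductionOn
    simp
  right_inv v := by
    induction v using Quotient.inductionOn
    simp

theorem act_pj (g ν : G) (hν : ν * g = g * ν) (x : G) : act g ν hν (pj g x) = pj g (ν * x) := rfl

theorem exists_cocycle {g : G} (hg : ¬ IsOfFinOrder g) :
    ∃ Φ : ExteriorAlgebra ℝ (VV g →₀ ℝ) →ₗ[ℝ] ℝ, (∀ y, Φ (ctr (eps _) y) = 0) ∧
      (∀ ν hν y, Φ (ExteriorAlgebra.map (Finsupp.lmapDomain ℝ ℝ (act g ν hν)) y) = Φ y) ∧
      ∀ {n : Type} [Fintype n] [DecidableEq n] (e : G → Matrix n n ℂ) (S : Finset G),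
        Merge e S → ∀ j, LL e S g (2 * j)
          (fun l => Φ (wedge (l.map fun x => Finsupp.single (pj g x) 1)))
          = (-1) ^ j * LL e S g 0 (fun _ => 1) := by
  obtain ⟨B, hB, hB1, hB2⟩ := exists_form hg
  let P := Pf B hB
  let Ψ : ExteriorAlgebra ℝ (G →₀ ℝ) →ₗ[ℝ] ℝ := P ∘ₗ ctr (eps G)
  let σ : (VV g →₀ ℝ) →ₗ[ℝ] (G →₀ ℝ) := Finsupp.lmapDomain ℝ ℝ Quotient.out
  let π : (G →₀ ℝ) →ₗ[ℝ] (VV g →₀ ℝ) := Finsupp.lmapDomain ℝ ℝ (pj g)
  have hπσ : π ∘ₗ σ = LinearMap.id := by
    ext x : 2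
    simp [π, σ, pj_out]
  have hkill : ∀ a z, Ψ (ExteriorAlgebra.ι ℝ ((σ ∘ₗ π) a - a) * z) = 0 := by
    intro a z
    have h1 : eps G ((σ ∘ₗ π) a - a) = 0 := by
      have : eps G ∘ₗ (σ ∘ₗ π) = eps G := by
        rw [← LinearMap.comp_assoc, eps_comp, eps_comp]
      rw [map_sub, ← LinearMap.comp_apply, this, sub_self]
    have h2 : ∃ κ : ℝ, B ((σ ∘ₗ π) a - a) = κ • eps G := by
      clear h1
      induction a using Finsupp.induction_linear with
      | zero => exact ⟨0, by simp⟩
      | add a b ha hb =>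
        obtain ⟨κ, ha⟩ := ha
        obtain ⟨κ', hb⟩ := hb
        refine ⟨κ + κ', ?_⟩
        rw [add_smul, ← ha, ← hb, ← map_add, map_add (σ ∘ₗ π)]
        congr 1
        abel
      | single x r =>
        obtain ⟨k, hk⟩ := pj_eq.1 (pj_out g (pj g x)).symm
        refine ⟨r * (-2 * k), ?_⟩
        have h3 := hB2 k x
        rw [← hk] at h3
        have h4 : (σ ∘ₗ π) (Finsupp.single x r) - Finsupp.single x r
            = r • (Finsupp.single (pj g x).out 1 - Finsupp.single x 1) := by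
          simp [σ, π, smul_sub]
        rw [h4, map_smul, map_sub, h3, add_sub_cancel_left, smul_smul]
    obtain ⟨κ, h2⟩ := h2
    simp only [Ψ, LinearMap.comp_apply] at h1 h2 ⊢
    rw [ctr_ι_mul, h1, zero_smul, zero_sub, map_neg, Pf_ι_mul, h2, ctr_smul, ctr_ctr]
    simp
  have hdesc : ∀ y, Ψ (ExteriorAlgebra.map σ (ExteriorAlgebra.map π y)) = Ψ y := by
    intro y
    rw [← map_eq_of_kill (σ ∘ₗ π) Ψ hkill y, ← ExteriorAlgebra.map_comp_map]
    rfl
  have hPinv : ∀ ν, ν * g = g * ν → ∀ y,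
      P (ExteriorAlgebra.map (Finsupp.lmapDomain ℝ ℝ (ν * ·)) y) = P y :=
    fun ν hν y => Pf_map _ B hB B hB (hB1 ν hν) y
  have hΨinv : ∀ ν, ν * g = g * ν → ∀ y,
      Ψ (ExteriorAlgebra.map (Finsupp.lmapDomain ℝ ℝ (ν * ·)) y) = Ψ y := by
    intro ν hν y
    simp only [Ψ, LinearMap.comp_apply]
    rw [← map_ctr, eps_comp, hPinv ν hν]
  refine ⟨Ψ ∘ₗ (ExteriorAlgebra.map σ).toLinearMap, fun y => ?_, fun ν hν y => ?_, ?_⟩
  · simp only [LinearMap.comp_apply, AlgHom.toLinearMap_apply, Ψ]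
    rw [← eps_comp (Quotient.out : VV g → G), map_ctr, ctr_ctr, map_zero]
  · simp only [LinearMap.comp_apply, AlgHom.toLinearMap_apply]
    have h1 : Finsupp.lmapDomain ℝ ℝ (act g ν hν)
        = π ∘ₗ (Finsupp.lmapDomain ℝ ℝ (ν * ·) ∘ₗ σ) := by
      ext x : 2
      simp [π, σ, ← act_pj g ν hν, pj_out]
    rw [h1, ← ExteriorAlgebra.map_comp_map, ← ExteriorAlgebra.map_comp_map]
    simp only [AlgHom.comp_apply]
    rw [hdesc, hΨinv ν hν]
  · intro n _ _ e S hm j
    let s : G → (G →₀ ℝ) := fun x => Finsupp.single x 1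
    have h0 : (fun l : List G => (Ψ ∘ₗ (ExteriorAlgebra.map σ).toLinearMap)
        (wedge (l.map fun x => Finsupp.single (pj g x) 1))) = fun l => Ψ (wedge (l.map s)) := by
      funext l
      rw [← hdesc, map_wedge, List.map_map]
      simp only [LinearMap.comp_apply, AlgHom.toLinearMap_apply]
      congr 3
      apply map_congr_left
      intro x _
      simp [s, π]
    rw [h0]
    have hs : ∀ ν (l : List G), wedge ((l.map (ν * ·)).map s)
        = ExteriorAlgebra.map (Finsupp.lmapDomain ℝ ℝ (ν * ·)) (wedge (l.map s)) := by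
      intro ν l
      rw [map_wedge, List.map_map, List.map_map]
      congr 1
      apply map_congr_left
      intro x _
      simp [s]
    have hI1 : Inv g (fun l => P (wedge (l.map s))) := fun ν hν l => by
      simp only [hs, hPinv ν hν]
    have hI2 : Inv g (fun l => Ψ (wedge (l.map s))) := fun ν hν l => by
      simp only [hs, hΨinv ν hν]
    have hdel : (fun l : List G => Ψ (wedge (l.map s))) = del (fun l => P (wedge (l.map s))) := by
      funext l
      rw [del_wedge (eps G) s (by simp [s])]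
      rfl
    induction j with
    | zero =>
      simp only [mul_zero, pow_zero, one_mul]
      apply LL_congr
      intro l hl
      obtain ⟨x, rfl⟩ := List.length_eq_one_iff.1 hl
      have := ctr_algebraMap (eps G) 1
      rw [map_one] at this
      simp [Ψ, wedge_cons, s, P, ctr, Pf_one]
    | succ j ih =>
      have h1 : LL e S g (2 * j + 1)
          (fun l => (-1) * P (wedge (l.map s)) + (-2) * Ψ (wedge (l.tail.map s)))
          = LL e S g (2 * j + 1) (fun l => P (wedge (l.map s))) := by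
        apply LL_rot hI1
        intro x l hl
        have h2 := hB2 1 x
        simp only [zpow_one, Int.cast_one, mul_one] at h2
        simp only [map_append, map_cons, map_nil, tail_cons, wedge_snoc, wedge_cons, map_smul,
          length_map, hl, P, Pf_ι_mul, s, h2, ctr_lin, map_add, Ψ, LinearMap.comp_apply,
          smul_eq_mul, pow_succ, pow_mul]
        ring
      rw [LL_lin, LL_tail hm hI2, ih] at h1
      rw [hdel, show 2 * (j + 1) = (2 * j + 1) + 1 by ring, LL_del hm hI1,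
        if_neg (by simp)]
      push_cast at h1
      linear_combination (-1 / 2 : ℂ) * h1

end Vale.Agent.P184
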