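import Vale.Agent.P184.Estimate

/-! The core approximation theorem: invariant cocycles are limits of cyclic coboundaries. -/

namespace Vale.Agent.P184

open Finset Classical MeasureTheory Filter Topology

variable {V : Type*}

theorem core (Γ : Gr V) (v₀ : V) : ∃ n, 0 < n ∧
    ∀ Φ : ExteriorAlgebra ℝ (V →₀ ℝ) →ₗ[ℝ] ℝ, (∀ y, Φ (ctr (eps V) y) = 0) →
      ∃ β : ℕ → List V → ℝ,
        (∀ s (γ : V ≃ V), Γ.Aut γ →
          (∀ y, Φ (ExteriorAlgebra.map (Finsupp.lmapDomain ℝ ℝ γ) y) = Φ y) →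
          ∀ l, β s (l.map γ) = β s l) ∧
        (∀ s a l, β s (l ++ [a]) = (-1) ^ l.length * β s (a :: l)) ∧
        ∀ x, ∀ l ∈ paths Γ.N (2 * n) x,
          Tendsto (fun s => del (β s) (x :: l)) atTop (𝓝 (phi Φ ((x :: l).map vt))) := by
  obtain ⟨k, m, q, κ, hk, hm, h0, h1, hκ0, hκ, hnum⟩ := exists_params Γ.D (Γ.one_le_D v₀)
  refine ⟨k ^ 2, by positivity, fun Φ hΦ => ?_⟩
  rw [← hm]
  have hm0 : 0 < m := by rw [hm]; positivity
  obtain ⟨ν, hν0, hν⟩ := exists_geom (m * k) h0 h1
  obtain ⟨r, hr⟩ : ∃ r : ℕ, k * ((m / (m + 1) : ℝ) ^ (r + 1) * (3 * m : ℕ)) ≤ 1 / 2 := by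
    have hpos : (0 : ℝ) < k * (3 * m : ℕ) := by positivity
    have hθ : (m / (m + 1) : ℝ) < 1 := by rw [div_lt_one (by positivity)]; linarith
    obtain ⟨r, hr⟩ := exists_pow_lt_of_lt_one (x := (1 / 2 / (k * (3 * m : ℕ)) : ℝ))
      (by positivity) hθ
    refine ⟨r, ?_⟩
    have h2 : (m / (m + 1) : ℝ) ^ (r + 1) ≤ (m / (m + 1) : ℝ) ^ r :=
      pow_le_pow_of_le_one (by positivity) hθ.le (by omega)
    rw [lt_div_iff₀ hpos] at hr
    nlinarith
  set c : ℝ := Γ.D ^ (4 * m) * q ^ (m * k) + 8 ^ m * ((4 * m * k + 1) * κ ^ (k ^ 2)) with hc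
  have hc0 : 0 ≤ c := by positivity
  have hbad : ∀ v, (iid ν V).real {ω | Γ.bad m k ω v} ≤ Γ.D ^ (2 * m) * c :=
    Gr.prob_bad ν hc0 fun x l hl => Gr.prob_not_good ν hk hm h0 h1 hκ0 hκ hν hl
  let B : ℕ → (V → Fin (m * k + 1)) → List (Pt V) → ℝ := fun j ω =>
    sdN (bary v₀) (r + 1) (pr (Γ.lab m k v₀ (2 * (j * (12 * m))) ω) (phi Φ))
  have hB : ∀ j L, Integrable (fun ω => B j ω L) (iid ν V) := by
    intro j L
    apply integrable_sdN
    intro L
    apply integrable_of_dep (iid ν V) (A := L.toFinset.biUnion (Γ.nbh (2 * (j * (12 * m)) + 7 * m)))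
    intro ω ω' h
    exact pr_congr _ fun p hp => Gr.lab_congr v₀ fun a ha =>
      h a (mem_coe.2 (mem_biUnion.2 ⟨p, List.mem_toFinset.2 hp, ha⟩))
  refine ⟨fun j l => (-1) * ∫ ω, B j ω (l.map vt) ∂(iid ν V), fun j γ hγ hΦγ l => ?_,
    fun j a l => ?_, fun x l hl => ?_⟩
  · have h2 : (l.map γ).map vt = (l.map vt).map (pmap γ) := by
      simp only [List.map_map]
      exact List.map_congr_left fun v _ => (pmap_vt γ v).symm
    have h3 : ∀ ω, B j ω ((l.map vt).map (pmap γ)) = B j (ω ∘ γ) (l.map vt) := by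
      intro ω
      simp only [B]
      rw [sdN_map (bary v₀) (bary v₀) (pmap γ) (bary_map v₀ γ)]
      congr 1
      funext L
      rw [pr_map _ _ (pmap γ) (hγ.lab v₀ _ ω)]
      simp only [phi_map hΦγ]
    simp only [h2, h3]
    rw [iid_integral_comp ν γ (fun ω => B j ω (l.map vt))]
  · have h3 : ∀ ω, B j ω ((l ++ [a]).map vt) = (-1) ^ l.length * B j ω ((a :: l).map vt) := by
      intro ω
      simp only [B, sdN, List.map_append, List.map_cons, List.map_nil]
      rw [sd_cyc _ (bary_snoc v₀), List.length_map]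
    simp only [h3, integral_const_mul]
    ring
  · let Q : (V → Fin (m * k + 1)) → ℝ := fun ω =>
      sdN (bary v₀) (r + 1) (fun l' => phi Φ (l'.map (Γ.lab1 m k v₀ ω))) ((x :: l).map vt)
    have hQ : Integrable Q (iid ν V) := by
      apply integrable_sdN
      intro L
      apply integrable_of_dep (iid ν V) (A := L.toFinset.biUnion (Γ.nbh (3 * m)))
      intro ω ω' h
      exact congrArg _ (List.map_congr_left fun p hp => Gr.lab1_congr v₀ fun a ha =>
        h a (mem_coe.2 (mem_biUnion.2 ⟨p, List.mem_toFinset.2 hp, ha⟩)))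
    let E : ℕ → Set (V → Fin (m * k + 1)) := fun j =>
      {ω | Γ.large m k (2 * (j * (12 * m))) ω (x :: l)}
    have hE : ∀ j, MeasurableSet (E j) := by
      intro j
      apply measurableSet_of_dep
        (A := (x :: l).toFinset.biUnion (Γ.ball (2 * (j * (12 * m)) + 7 * m)))
      intro ω ω' h
      refine propext (exists_congr fun v => and_congr_right fun hv => ?_)
      have h' : ∀ a ∈ Γ.ball (2 * (j * (12 * m)) + 7 * m) v, ω a = ω' a := fun a ha =>
        h a (mem_coe.2 (mem_biUnion.2 ⟨v, List.mem_toFinset.2 hv, ha⟩))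
      rw [Gr.small_congr h', Gr.bad_congr fun a ha => h' a (Gr.ball_mono (by omega) ha)]
    have hE0 : Tendsto ((iid ν V) ∘ E) atTop (𝓝 0) := by
      have h2 : ∀ j, (iid ν V).real (E j) ≤ (x :: l).toFinset.card * (1 / 2) ^ j := by
        intro j
        calc _ ≤ (iid ν V).real (⋃ v ∈ (x :: l).toFinset,
              {ω | ¬ Γ.small m k (2 * (j * (12 * m))) ω v}) := by
              refine measureReal_mono ?_ (measure_ne_top _ _)
              rintro ω ⟨v, hv, -, h⟩
              simp only [Set.mem_iUnion]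
              exact ⟨v, List.mem_toFinset.2 hv, h⟩
          _ ≤ _ := by
              refine (measureReal_biUnion_finset_le _ _).trans ?_
              rw [← nsmul_eq_mul]
              refine sum_le_card_nsmul _ _ _ fun v _ => (Gr.prob_not_small ν hbad j v).trans ?_
              exact pow_le_pow_left₀ (by positivity) hnum j
      have h3 : Tendsto (fun j => (iid ν V).real (E j)) atTop (𝓝 0) := by
        refine squeeze_zero (fun _ => measureReal_nonneg) h2 ?_
        simpa using (tendsto_pow_atTop_nhds_zero_of_lt_one (r := (1 / 2 : ℝ)) (by norm_num)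
          (by norm_num)).const_mul (((x :: l).toFinset.card : ℝ))
      have h4 := ENNReal.tendsto_ofReal h3
      simpa [Function.comp_def] using h4
    have h5 : ∀ j, del (fun l => (-1) * ∫ ω, B j ω (l.map vt) ∂(iid ν V)) (x :: l)
        = phi Φ ((x :: l).map vt) - ∫ ω in E j, Q ω ∂(iid ν V) := by
      intro j
      rw [del_mul, ← del_map vt (fun L => ∫ ω, B j ω L ∂(iid ν V)), ← integral_del (hB j)]
      have h6 : ∀ ω, del (B j ω) ((x :: l).map vt)
          = (E j).indicator Q ω - phi Φ ((x :: l).map vt) := by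
        intro ω
        simp only [B]
        rw [del_sdN_pr v₀ Φ hΦ]
        congr 1
        by_cases h : ω ∈ E j
        · rw [Set.indicator_of_mem h]
          exact Gr.eq_of_large v₀ Φ _ hl h
        · rw [Set.indicator_of_notMem h]
          exact Gr.vanish v₀ Φ hm0 hr hl h
      simp only [h6]
      rw [integral_sub (hQ.indicator (hE j)) (integrable_const _), integral_indicator (hE j)]
      simp
    simp only [h5]
    simpa using (hQ.tendsto_setIntegral_nhds_zero hE0).const_sub (phi Φ ((x :: l).map vt))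

end Vale.Agent.P184
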