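import Mathlib

/-! Probability tools: local functions of an iid field, truncated geometric law. -/

namespace Vale.Agent.P184

open MeasureTheory ProbabilityTheory Finset

theorem exists_geom (K : ℕ) {q : ℝ} (h0 : 0 ≤ q) (h1 : q ≤ 1) :
    ∃ ν : Measure (Fin (K + 1)), IsProbabilityMeasure ν ∧
      ∀ j ≤ K, ν.real {i | j ≤ i.val} = q ^ j := by
  let T : ℕ → ℝ := fun i => if i ≤ K then q ^ i else 0
  let w : Fin (K + 1) → ℝ := fun i => T i - T (i + 1)
  have hw : ∀ i, 0 ≤ w i := by
    intro i
    have hi : (i : ℕ) ≤ K := Nat.lt_succ_iff.1 i.2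
    simp only [w, T, hi, if_true]
    split_ifs
    · rw [pow_succ]
      have := pow_nonneg h0 i
      nlinarith
    · simpa using pow_nonneg h0 i
  let ν : Measure (Fin (K + 1)) := ∑ i, ENNReal.ofReal (w i) • Measure.dirac i
  have hν : ∀ j ≤ K, ν {i | j ≤ i.val} = ENNReal.ofReal (q ^ j) := by
    intro j hj
    have h2 : ∑ i : Fin (K + 1), (if j ≤ i.val then w i else 0) = q ^ j := by
      have h3 := Finset.sum_range_sub' (fun i => T (max i j)) (K + 1)
      rw [← Fin.sum_univ_eq_sum_range (fun i => T (max i j) - T (max (i + 1) j))] at h3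
      have h4 : T (max 0 j) - T (max (K + 1) j) = q ^ j := by
        have : ¬ max (K + 1) j ≤ K := by omega
        simp [T, hj]
      rw [← h4, ← h3]
      refine Finset.sum_congr rfl fun i _ => ?_
      split_ifs with h
      · rw [max_eq_left h, max_eq_left (by omega)]
      · rw [max_eq_right (by omega), max_eq_right (by omega), sub_self]
    rw [← h2, ENNReal.ofReal_sum_of_nonneg (fun i _ => by split_ifs; exacts [hw i, le_rfl])]
    simp only [ν, Measure.coe_finsetSum, Finset.sum_apply, Measure.smul_apply, smul_eq_mul]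
    refine Finset.sum_congr rfl fun i _ => ?_
    rw [Measure.dirac_apply]
    by_cases h : j ≤ i.val <;> simp [h]
  refine ⟨ν, ⟨by simpa using hν 0 (Nat.zero_le _)⟩, fun j hj => ?_⟩
  rw [Measure.real, hν j hj, ENNReal.toReal_ofReal (pow_nonneg h0 j)]

variable {V X : Type*} [Fintype X] [MeasurableSpace X] [MeasurableSingletonClass X]

theorem measurable_of_dep {β : Type*} [MeasurableSpace β] [Nonempty β] {f : (V → X) → β}
    {A : Finset V} (h : DependsOn f (A : Set V)) : Measurable f := by
  obtain ⟨g, rfl⟩ := dependsOn_iff_exists_comp.1 h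
  exact (measurable_of_finite g).comp (measurable_pi_lambda _ fun a => measurable_pi_apply _)

theorem measurableSet_of_dep {p : (V → X) → Prop} {A : Finset V}
    (h : DependsOn p (A : Set V)) : MeasurableSet {ω | p ω} :=
  measurableSet_setOfPred.2 (measurable_of_dep h)

theorem integrable_of_dep (μ : Measure (V → X)) [IsFiniteMeasure μ] {f : (V → X) → ℝ}
    {A : Finset V} (h : DependsOn f (A : Set V)) : Integrable f μ := by
  have hm := measurable_of_dep h
  obtain ⟨g, rfl⟩ := dependsOn_iff_exists_comp.1 h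
  obtain ⟨C, hC⟩ := (Set.finite_range fun x => ‖g x‖).bddAbove
  exact Integrable.of_bound hm.aestronglyMeasurable C
    (Filter.Eventually.of_forall fun ω => hC ⟨_, rfl⟩)

variable (ν : Measure X) [IsProbabilityMeasure ν]

/-- The iid field. -/
noncomputable def iid (V : Type*) : Measure (V → X) := Measure.infinitePi fun _ => ν

instance : IsProbabilityMeasure (iid ν V) := by
  unfold iid
  infer_instance

theorem iid_and {p p' : (V → X) → Prop} {A A' : Finset V} (hA : Disjoint A A')
    (h : DependsOn p (A : Set V)) (h' : DependsOn p' (A' : Set V)) :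
    (iid ν V).real {ω | p ω ∧ p' ω} = (iid ν V).real {ω | p ω} * (iid ν V).real {ω | p' ω} := by
  have h1 : iIndepFun (fun (i : V) (ω : V → X) => ω i) (iid ν V) :=
    iIndepFun_infinitePi (X := fun _ ω => ω) (fun _ => measurable_id)
  have h2 := h1.indepFun_finset A A' hA (fun i => measurable_pi_apply i)
  obtain ⟨g, rfl⟩ := dependsOn_iff_exists_comp.1 h
  obtain ⟨g', rfl⟩ := dependsOn_iff_exists_comp.1 h'
  have h3 := h2.measure_inter_preimage_eq_mul {x | g x} {x | g' x}
    (Set.toFinite _).measurableSet (Set.toFinite _).measurableSet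
  simp only [Measure.real]
  rw [← ENNReal.toReal_mul]
  exact congrArg _ h3

omit [Fintype X] [MeasurableSingletonClass X] in
theorem iid_integral_comp (γ : V ≃ V) (f : (V → X) → ℝ) :
    ∫ ω, f (ω ∘ γ) ∂(iid ν V) = ∫ ω, f ω ∂(iid ν V) := by
  let e : (V → X) ≃ᵐ (V → X) :=
    { toFun := fun ω => ω ∘ γ
      invFun := fun ω => ω ∘ γ.symm
      left_inv := fun ω => by ext; simp
      right_inv := fun ω => by ext; simp
      measurable_toFun := measurable_pi_lambda _ fun a => measurable_pi_apply _
      measurable_invFun := measurable_pi_lambda _ fun a => measurable_pi_apply _ }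
  have h : MeasurePreserving e (iid ν V) (iid ν V) :=
    ⟨e.measurable, Measure.map_infinitePi_infinitePi_of_inj (P := fun _ : V => ν) γ.injective⟩
  exact h.integral_comp' f

theorem iid_eval (a : V) (W : Set X) : (iid ν V).real {ω | ω a ∈ W} = ν.real W := by
  have := Measure.infinitePi_pi (fun _ : V => ν) (s := {a}) (t := fun _ => W)
    (fun _ _ => (Set.toFinite _).measurableSet)
  simp only [Measure.real, iid]
  congr 1
  rw [Finset.prod_singleton] at this
  rw [← this]
  congr 1
  ext ω
  simp

theorem iid_window [DecidableEq V] (B : Finset V) (j : ℕ) (W U : V → Set X) {κ : ℝ} (hκ : 0 ≤ κ)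
    (h : ∀ a, ν.real (W a) ≤ κ * (1 - ν.real (U a))) :
    (iid ν V).real {ω | ∃ A ⊆ B, A.card = j ∧ (∀ a ∈ A, ω a ∈ W a) ∧ ∀ a ∈ B, a ∉ A → ω a ∈ U a}
      ≤ κ ^ j := by
  have hU : ∀ a, 0 ≤ 1 - ν.real (U a) := fun a => sub_nonneg.2 measureReal_le_one
  calc _ ≤ (iid ν V).real (⋃ A ∈ B.powersetCard j,
          Set.pi B (fun a => if a ∈ A then W a else U a)) := by
        refine measureReal_mono ?_ (measure_ne_top _ _)
        rintro ω ⟨A, hA, hc, h1, h2⟩
        simp only [Set.mem_iUnion]
        refine ⟨A, mem_powersetCard.2 ⟨hA, hc⟩, fun a ha => ?_⟩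
        dsimp only
        split_ifs with h3
        · exact h1 a h3
        · exact h2 a ha h3
    _ ≤ ∑ A ∈ B.powersetCard j, (iid ν V).real
          (Set.pi B (fun a => if a ∈ A then W a else U a)) := measureReal_biUnion_finset_le _ _
    _ ≤ ∑ A ∈ B.powersetCard j,
          κ ^ j * ((∏ a ∈ A, (1 - ν.real (U a))) * ∏ a ∈ B \ A, ν.real (U a)) := by
        refine Finset.sum_le_sum fun A hA => ?_
        obtain ⟨hA, hc⟩ := mem_powersetCard.1 hA
        rw [Measure.real, iid, Measure.infinitePi_pi _ (fun _ _ => (Set.toFinite _).measurableSet),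
          ENNReal.toReal_prod, ← Finset.prod_sdiff hA, mul_comm, ← mul_assoc, ← hc,
          ← Finset.prod_const, ← Finset.prod_mul_distrib]
        refine mul_le_mul (Finset.prod_le_prod (fun _ _ => ENNReal.toReal_nonneg) fun a ha => ?_)
          (le_of_eq (Finset.prod_congr rfl fun a ha => ?_))
          (Finset.prod_nonneg fun _ _ => ENNReal.toReal_nonneg)
          (Finset.prod_nonneg fun a _ => mul_nonneg hκ (hU a))
        · rw [if_pos ha]
          exact h a
        · rw [if_neg (mem_sdiff.1 ha).2]
          rfl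
    _ ≤ ∑ A ∈ B.powerset,
          κ ^ j * ((∏ a ∈ A, (1 - ν.real (U a))) * ∏ a ∈ B \ A, ν.real (U a)) := by
        refine Finset.sum_le_sum_of_subset_of_nonneg (fun A hA => ?_) fun A _ _ => ?_
        · exact mem_powerset.2 (mem_powersetCard.1 hA).1
        · exact mul_nonneg (pow_nonneg hκ _) (mul_nonneg (Finset.prod_nonneg fun a _ => hU a)
            (Finset.prod_nonneg fun _ _ => measureReal_nonneg))
    _ = κ ^ j := by
        rw [← Finset.mul_sum, ← Finset.prod_add]
        simp

end Vale.Agent.P184
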