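import Vale.Agent.P184.Vanish
import Vale.Agent.P184.Prob

/-! Probability that a cell is not good; Peierls bound. -/

namespace Vale.Agent.P184

open Finset Classical MeasureTheory

theorem window_ineq {K k : ℕ} {q κ : ℝ} (h0 : 0 ≤ q) (h1 : q ≤ 1) (hκ0 : 0 ≤ κ)
    (hκ : 4 * (1 - q) ≤ κ * q ^ (k + 3)) (ν : Measure (Fin (K + 1))) [IsProbabilityMeasure ν]
    (hν : ∀ j ≤ K, ν.real {i | j ≤ i.val} = q ^ j) (lo : ℕ) :
    ν.real {i | lo ≤ i.val ∧ i.val < lo + 4 ∧ i.val < K}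
      ≤ κ * (1 - ν.real {i | i.val < lo + k + 3 ∧ i.val < K}) := by
  have hU : q ^ (lo + k + 3) ≤ 1 - ν.real {i | i.val < lo + k + 3 ∧ i.val < K} := by
    have h2 : {i : Fin (K + 1) | i.val < lo + k + 3 ∧ i.val < K}
        = {i | min (lo + k + 3) K ≤ i.val}ᶜ := by
      ext i
      simp only [Set.mem_compl_iff, Set.mem_ofPred_eq]
      omega
    rw [h2, probReal_compl_eq_one_sub (Set.toFinite _).measurableSet, hν _ (min_le_right _ _),
      sub_sub_cancel]
    exact pow_le_pow_of_le_one h0 h1 (min_le_left _ _)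
  refine le_trans ?_ (mul_le_mul_of_nonneg_left hU hκ0)
  by_cases hlo : lo ≤ K
  · have h2 : {i : Fin (K + 1) | lo ≤ i.val ∧ i.val < lo + 4 ∧ i.val < K}
        = {i | lo ≤ i.val} \ {i | min (lo + 4) K ≤ i.val} := by
      ext i
      simp only [Set.mem_sdiff, Set.mem_ofPred_eq]
      omega
    rw [h2, measureReal_sdiff (fun i hi => by simp only [Set.mem_ofPred_eq] at hi ⊢; omega)
      (Set.toFinite _).measurableSet, hν _ hlo, hν _ (min_le_right _ _)]
    have h3 : q ^ (lo + 4) ≤ q ^ min (lo + 4) K := pow_le_pow_of_le_one h0 h1 (min_le_left _ _)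
    have h4 : 1 - q ^ 4 ≤ 4 * (1 - q) := by
      have := one_add_mul_le_pow (a := q - 1) (by linarith) 4
      norm_num at this
      linarith
    have h5 := pow_nonneg h0 lo
    calc _ ≤ q ^ lo * (1 - q ^ 4) := by rw [pow_add] at h3; linarith
      _ ≤ q ^ lo * (κ * q ^ (k + 3)) := mul_le_mul_of_nonneg_left (h4.trans hκ) h5
      _ = _ := by ring
  · have h2 : {i : Fin (K + 1) | lo ≤ i.val ∧ i.val < lo + 4 ∧ i.val < K} = ∅ := by
      ext i
      simp only [Set.mem_ofPred_eq, Set.mem_empty_iff_false, iff_false]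
      omega
    rw [h2, measureReal_empty]
    positivity

theorem exists_half {V : Type*} {A : Finset V} {k : ℕ} (hk : 0 < k) (hA : 2 * k ^ 2 ≤ A.card)
    {err : V → ℝ} (h : ∑ a ∈ A, err a ^ 2 ≤ A.card / (2 * k ^ 2 : ℕ)) :
    ∃ B ⊆ A, B.card = k ^ 2 ∧ ∀ a ∈ B, |k * err a| ≤ 1 := by
  have hk' : (0 : ℝ) < k := by exact_mod_cast hk
  have h1 := card_filter_add_card_filter_not (s := A) (fun a => |k * err a| ≤ 1)
  have h2 : ((A.filter fun a => ¬ |k * err a| ≤ 1).card : ℝ) * (1 / k ^ 2)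
      ≤ A.card / (2 * k ^ 2 : ℕ) := by
    refine le_trans ?_ (le_trans (sum_le_sum_of_subset_of_nonneg (filter_subset
      (fun a => ¬ |k * err a| ≤ 1) A) fun _ _ _ => sq_nonneg _) h)
    rw [← nsmul_eq_mul]
    apply card_nsmul_le_sum
    intro a ha
    have h3 := not_le.1 (mem_filter.1 ha).2
    have h4 : 1 ≤ (k * err a) ^ 2 := by
      rw [← sq_abs]
      nlinarith
    rw [div_le_iff₀ (by positivity)]
    nlinarith
  have h3 : 2 * (A.filter fun a => ¬ |k * err a| ≤ 1).card ≤ A.card := by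
    push_cast at h2
    rw [mul_one_div, div_le_div_iff₀ (by positivity) (by positivity)] at h2
    have : (2 * (A.filter fun a => ¬ |k * err a| ≤ 1).card : ℝ) ≤ A.card := by
      have : (0 : ℝ) < k ^ 2 := by positivity
      nlinarith
    exact_mod_cast this
  obtain ⟨B, hB, hc⟩ := exists_subset_card_eq (s := A.filter fun a => |k * err a| ≤ 1)
    (n := k ^ 2) (by omega)
  exact ⟨B, hB.trans (filter_subset _ _), hc, fun a ha => (mem_filter.1 (hB ha)).2⟩

variable {V : Type*}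

namespace Gr

variable {Γ : Gr V} {m k : ℕ}

variable (Γ m k) in
/-- Lower end of the window at a net point and a level. -/
noncomputable def low (x : V) (l : List V) (μ : List ℕ) (t : ℤ) (a : V) : ℕ :=
  ⌈(t : ℝ) - 2 + k * (Γ.dd (3 * m) a x + gv m (fun y => Γ.dd (3 * m) a y) x l μ)⌉₊

theorem of_not_good (hk : 0 < k) (hm : m = 2 * k ^ 2) {ω : V → Fin (m * k + 1)} {x : V}
    {l : List V} (hl : l ∈ paths Γ.N m x) (hg : ¬ Γ.good m k ω x l)
    (ht : ∀ a ∈ Γ.ball (4 * m) x, (ω a).val < m * k) :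
    ∃ μ ∈ net m m, ∃ t ∈ Icc (-(3 * m * k : ℤ)) (m * k), ∃ A ⊆ Γ.ball (4 * m) x,
      A.card = k ^ 2 ∧ (∀ a ∈ A, Γ.low m k x l μ t a ≤ (ω a).val ∧
        (ω a).val < Γ.low m k x l μ t a + 4 ∧ (ω a).val < m * k) ∧
      ∀ a ∈ Γ.ball (4 * m) x, a ∉ A →
        (ω a).val < Γ.low m k x l μ t a + k + 3 ∧ (ω a).val < m * k := by
  have hm0 : 0 < m := by rw [hm]; positivity
  have hm' : (0 : ℝ) < m := by exact_mod_cast hm0
  have hk' : (0 : ℝ) < k := by exact_mod_cast hk
  simp only [good, not_forall, not_lt] at hg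
  obtain ⟨p, hp, hc⟩ := hg
  obtain ⟨μ, hμ, h1, h2⟩ := rounding hm0 (fun a y => (Γ.dd (3 * m) a y : ℝ)) dd_lip
    (Γ.near m k ω x p) hl hp (M := m) (by rw [p.2]; linarith) (fun _ => 0)
  simp only [p.2, one_mul, zero_add, div_self hm'.ne'] at h1 h2
  obtain ⟨A, hA, hAc, hA'⟩ := exists_half hk (hm.symm.trans_le hc) (err := fun a =>
    lf (fun y => (Γ.dd (3 * m) a y : ℝ)) p.1 - Γ.dd (3 * m) a x
      - gv m (fun y => (Γ.dd (3 * m) a y : ℝ)) x l μ) (by
    refine h2.trans (le_of_eq ?_)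
    rw [← hm]
    simp
    field_simp)
  obtain ⟨a₀, ha₀, hT⟩ := exists_max_image (Γ.ball (4 * m) x) (fun a => Γ.score m k ω a p)
    ⟨x, mem_ball_self _ _⟩
  set T := Γ.score m k ω a₀ p with hTdef
  have hf1 := Int.floor_le T
  have hf2 := Int.lt_floor_add_one T
  refine ⟨μ, hμ, ⌊T⌋, mem_Icc.2 ⟨?_, ?_⟩, A, fun a ha => (mem_near.1 (hA ha)).1, hAc,
    fun a ha => ?_, fun a ha _ => ⟨?_, ht a ha⟩⟩
  · rw [Int.le_floor]
    have := le_score (Γ := Γ) ω a₀ hp.1 (c := (3 * m : ℕ)) (fun z _ => by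
      exact_mod_cast dd_le _ _ _)
    have h6 : (0 : ℝ) ≤ (ω a₀ : ℕ) := Nat.cast_nonneg _
    push_cast at this ⊢
    linarith
  · have := score_le (Γ := Γ) ω a₀ hp.1 (c := 0) (fun z _ => Nat.cast_nonneg _)
    have h5 : ((ω a₀ : ℕ) : ℝ) ≤ (m * k : ℕ) := by exact_mod_cast Nat.lt_succ_iff.1 (ω a₀).2
    have : (⌊T⌋ : ℝ) ≤ ((m * k : ℤ) : ℝ) := by
      push_cast at h5 ⊢
      linarith
    exact_mod_cast this
  · obtain ⟨h3, h4⟩ := mem_near.1 (hA ha)
    have h5 : T ≤ _ := h4 a₀ ha₀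
    have h6 := hT a h3
    have h7 := abs_le.1 (hA' a ha)
    have h8 := Nat.le_ceil ((⌊T⌋ : ℝ) - 2 + k * (Γ.dd (3 * m) a x
      + gv m (fun y => Γ.dd (3 * m) a y) x l μ))
    simp only [score] at h5 h6
    refine ⟨Nat.ceil_le.2 (by linarith [h7.1, h7.2]), ?_, ht a h3⟩
    have : ((ω a).val : ℝ) < Γ.low m k x l μ ⌊T⌋ a + 4 := by
      unfold low
      linarith [h7.1, h7.2]
    exact_mod_cast this
  · have h6 := hT a ha
    have h7 := mul_le_mul_of_nonneg_left (abs_le.1 (h1 a)).2 hk'.le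
    have h8 := Nat.le_ceil ((⌊T⌋ : ℝ) - 2 + k * (Γ.dd (3 * m) a x
      + gv m (fun y => Γ.dd (3 * m) a y) x l μ))
    simp only [score] at h6
    have : ((ω a).val : ℝ) < Γ.low m k x l μ ⌊T⌋ a + k + 3 := by
      unfold low
      linarith
    exact_mod_cast this

variable (ν : Measure (Fin (m * k + 1))) [IsProbabilityMeasure ν]

theorem prob_not_good (hk : 0 < k) (hm : m = 2 * k ^ 2) {q κ : ℝ} (h0 : 0 ≤ q) (h1 : q ≤ 1)
    (hκ0 : 0 ≤ κ) (hκ : 4 * (1 - q) ≤ κ * q ^ (k + 3))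
    (hν : ∀ j ≤ m * k, ν.real {i | j ≤ i.val} = q ^ j) {x : V} {l : List V}
    (hl : l ∈ paths Γ.N m x) :
    (iid ν V).real {ω | ¬ Γ.good m k ω x l}
      ≤ Γ.D ^ (4 * m) * q ^ (m * k) + 8 ^ m * ((4 * m * k + 1) * κ ^ (k ^ 2)) := by
  calc _ ≤ (iid ν V).real ((⋃ a ∈ Γ.ball (4 * m) x, {ω | ω a ∈ {i | m * k ≤ i.val}}) ∪
        ⋃ μ ∈ net m m, ⋃ t ∈ Icc (-(3 * m * k : ℤ)) (m * k),
          {ω | ∃ A ⊆ Γ.ball (4 * m) x, A.card = k ^ 2 ∧
            (∀ a ∈ A, ω a ∈ {i | Γ.low m k x l μ t a ≤ i.val ∧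
              i.val < Γ.low m k x l μ t a + 4 ∧ i.val < m * k}) ∧
            ∀ a ∈ Γ.ball (4 * m) x, a ∉ A →
              ω a ∈ {i | i.val < Γ.low m k x l μ t a + k + 3 ∧ i.val < m * k}}) := by
        refine measureReal_mono (fun ω hω => ?_) (measure_ne_top _ _)
        by_cases ht : ∀ a ∈ Γ.ball (4 * m) x, (ω a).val < m * k
        · right
          obtain ⟨μ, hμ, t, ht, h⟩ := of_not_good hk hm hl hω ht
          simp only [Set.mem_iUnion]
          exact ⟨μ, hμ, t, ht, h⟩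
        · left
          simp only [not_forall, not_lt] at ht
          obtain ⟨a, ha, h⟩ := ht
          simp only [Set.mem_iUnion]
          exact ⟨a, ha, h⟩
    _ ≤ _ := by
        refine (measureReal_union_le _ _).trans (add_le_add ?_ ?_)
        · refine (measureReal_biUnion_finset_le _ _).trans ?_
          simp only [iid_eval, hν _ le_rfl, sum_const, nsmul_eq_mul]
          have : ((Γ.ball (4 * m) x).card : ℝ) ≤ Γ.D ^ (4 * m) := by
            exact_mod_cast card_ball (4 * m) x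
          gcongr
        · refine (measureReal_biUnion_finset_le _ _).trans ?_
          refine (sum_le_card_nsmul _ _ ((4 * m * k + 1) * κ ^ (k ^ 2)) fun μ _ => ?_).trans ?_
          · refine (measureReal_biUnion_finset_le _ _).trans ?_
            refine (sum_le_card_nsmul _ _ (κ ^ (k ^ 2)) fun t _ => ?_).trans ?_
            · exact iid_window ν _ _ _ _ hκ0 fun a => window_ineq h0 h1 hκ0 hκ ν hν _
            · rw [nsmul_eq_mul, Int.card_Icc]
              have : (m * k + 1 - -(3 * m * k) : ℤ) = (4 * m * k + 1 : ℕ) := by push_cast; ring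
              rw [this, Int.toNat_natCast]
              push_cast
              rfl
          · rw [nsmul_eq_mul]
            have : ((net m m).card : ℝ) ≤ 8 ^ m := by
              have := card_net m m
              rw [← mul_pow] at this
              exact_mod_cast this
            gcongr

omit [IsProbabilityMeasure ν] in
theorem prob_bad {c : ℝ} (hc0 : 0 ≤ c) (hc : ∀ x, ∀ l ∈ paths Γ.N m x,
    (iid ν V).real {ω | ¬ Γ.good m k ω x l} ≤ c) (v : V) :
    (iid ν V).real {ω | Γ.bad m k ω v} ≤ Γ.D ^ (2 * m) * c := by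
  have h1 : {ω | Γ.bad m k ω v}
      = ⋃ x ∈ Γ.ball m v, ⋃ l ∈ paths Γ.N m x, {ω | ¬ Γ.good m k ω x l} := by
    ext ω
    simp [bad]
  rw [h1]
  refine (measureReal_biUnion_finset_le _ _).trans ?_
  refine (sum_le_card_nsmul _ _ (Γ.D ^ m * c) fun x _ => ?_).trans ?_
  · refine (measureReal_biUnion_finset_le _ _).trans ?_
    refine (sum_le_card_nsmul _ _ c (hc x)).trans ?_
    rw [nsmul_eq_mul]
    have : ((paths Γ.N m x).card : ℝ) ≤ Γ.D ^ m := by exact_mod_cast card_paths Γ.card_le m x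
    gcongr
  · rw [nsmul_eq_mul, two_mul, pow_add, mul_assoc]
    have : ((Γ.ball m v).card : ℝ) ≤ Γ.D ^ m := by exact_mod_cast card_ball m v
    gcongr

theorem prob_sep {c : ℝ} (hc : ∀ v, (iid ν V).real {ω | Γ.bad m k ω v} ≤ c) {zs : List V}
    (h : zs.Pairwise fun a b => b ∉ Γ.ball (10 * m) a) :
    (iid ν V).real {ω | ∀ z ∈ zs, Γ.bad m k ω z} ≤ c ^ zs.length := by
  induction zs with
  | nil => simp
  | cons z zs ih =>
    rw [List.pairwise_cons] at h
    simp only [List.forall_mem_cons]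
    rw [iid_and ν (A := Γ.ball (5 * m) z) (A' := zs.toFinset.biUnion (Γ.ball (5 * m))),
      List.length_cons, pow_succ, mul_comm]
    · exact mul_le_mul (ih h.2) (hc z) measureReal_nonneg
        (pow_nonneg (measureReal_nonneg.trans (hc z)) _)
    · rw [disjoint_left]
      intro a ha ha'
      obtain ⟨w, hw, ha'⟩ := mem_biUnion.1 ha'
      exact h.1 w (List.mem_toFinset.1 hw) (ball_trans' ha (ball_symm ha') (by omega))
    · exact fun ω ω' hω => propext (bad_congr hω)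
    · refine fun ω ω' hω => propext (forall₂_congr fun w hw => bad_congr fun a ha => hω a ?_)
      exact mem_coe.2 (mem_biUnion.2 ⟨w, List.mem_toFinset.2 hw, ha⟩)

omit ν in
theorem last_exit {P : V → Prop} {x y : V}
    (h : Relation.ReflTransGen (fun a b => b ∈ Γ.ball (2 * m) a ∧ P b) x y) :
    y ∈ Γ.ball (10 * m) x ∨ ∃ z ∈ Γ.ball (12 * m) x, (P z ∧ z ∉ Γ.ball (10 * m) x) ∧
      Relation.ReflTransGen (fun a b => b ∈ Γ.ball (2 * m) a ∧ P b ∧ b ∉ Γ.ball (10 * m) x) z y := by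
  induction h with
  | refl => exact Or.inl (mem_ball_self _ _)
  | @tail b c _ h2 ih =>
    by_cases hc : c ∈ Γ.ball (10 * m) x
    · exact Or.inl hc
    · right
      rcases ih with ih | ⟨z, hz, hz', ih⟩
      · exact ⟨c, ball_trans' ih h2.1 (by omega), ⟨h2.2, hc⟩, .refl⟩
      · exact ⟨z, hz, hz', ih.tail ⟨h2.1, h2.2, hc⟩⟩

omit ν in
theorem exists_sep (j : ℕ) {P : V → Prop} {x y : V}
    (h : Relation.ReflTransGen (fun a b => b ∈ Γ.ball (2 * m) a ∧ P b) x y)
    (hy : y ∉ Γ.ball (j * (12 * m)) x) :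
    ∃ zs ∈ paths (Γ.ball (12 * m)) j x, (∀ z ∈ zs, P z) ∧
      (x :: zs).Pairwise fun a b => b ∉ Γ.ball (10 * m) a := by
  induction j generalizing P x with
  | zero => exact ⟨[], mem_paths_zero.2 rfl, by simp, by simp⟩
  | succ j ih =>
    rcases last_exit h with h1 | ⟨z, hz, hz', h1⟩
    · exact absurd (ball_mono (by nlinarith) h1) hy
    · obtain ⟨zs, h2, h3, h4⟩ := ih (P := fun b => P b ∧ b ∉ Γ.ball (10 * m) x) h1
        (fun h5 => hy (ball_trans' hz h5 (by nlinarith)))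
      refine ⟨z :: zs, mem_paths_succ.2 ⟨z, hz, zs, h2, rfl⟩, ?_, ?_⟩
      · exact List.forall_mem_cons.2 ⟨hz'.1, fun w hw => (h3 w hw).1⟩
      · exact List.pairwise_cons.2 ⟨List.forall_mem_cons.2 ⟨hz'.2, fun w hw => (h3 w hw).2⟩, h4⟩

theorem prob_not_small {c : ℝ} (hc : ∀ v, (iid ν V).real {ω | Γ.bad m k ω v} ≤ c)
    (j : ℕ) (v : V) : (iid ν V).real {ω | ¬ Γ.small m k (2 * (j * (12 * m))) ω v}
      ≤ (Γ.D ^ (12 * m) * c) ^ j := by
  have hc0 : 0 ≤ c := measureReal_nonneg.trans (hc v)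
  calc _ ≤ (iid ν V).real (⋃ zs ∈ (paths (Γ.ball (12 * m)) j v).filter
        (fun zs => zs.Pairwise fun a b => b ∉ Γ.ball (10 * m) a),
          {ω | ∀ z ∈ zs, Γ.bad m k ω z}) := by
        refine measureReal_mono (fun ω hω => ?_) (measure_ne_top _ _)
        obtain ⟨y, hy, hy'⟩ : ∃ y, Γ.clus m k ω v y ∧ y ∉ Γ.ball (j * (12 * m)) v := by
          by_contra h
          push Not at h
          exact hω fun y z hy hz => ball_trans' (ball_symm (h y hy)) (h z hz) (by omega)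
        obtain ⟨zs, h1, h2, h3⟩ := exists_sep j hy hy'
        simp only [Set.mem_iUnion]
        exact ⟨zs, mem_filter.2 ⟨h1, h3.of_cons⟩, h2⟩
    _ ≤ _ := by
        refine (measureReal_biUnion_finset_le _ _).trans ?_
        refine (sum_le_card_nsmul _ _ (c ^ j) fun zs hzs => ?_).trans ?_
        · obtain ⟨h1, h2⟩ := mem_filter.1 hzs
          rw [← length_of_mem_paths h1]
          exact prob_sep ν hc h2
        · rw [nsmul_eq_mul, mul_pow]
          have : (((paths (Γ.ball (12 * m)) j v).filter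
              (fun zs => zs.Pairwise fun a b => b ∉ Γ.ball (10 * m) a)).card : ℝ)
              ≤ (Γ.D ^ (12 * m)) ^ j := by
            exact_mod_cast (card_filter_le _ _).trans (card_paths (card_ball (12 * m)) j v)
          gcongr

end Gr

theorem exists_params (D : ℕ) (hD : 1 ≤ D) : ∃ (k m : ℕ) (q κ : ℝ), 0 < k ∧ m = 2 * k ^ 2 ∧
    0 ≤ q ∧ q ≤ 1 ∧ 0 ≤ κ ∧ 4 * (1 - q) ≤ κ * q ^ (k + 3) ∧
    (D : ℝ) ^ (12 * m) * (D ^ (2 * m) * (D ^ (4 * m) * q ^ (m * k)
      + 8 ^ m * ((4 * m * k + 1) * κ ^ (k ^ 2)))) ≤ 1 / 2 := by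
  have hD' : (1 : ℝ) ≤ D := by exact_mod_cast hD
  set β : ℝ := 4 * D ^ 18 with hβ
  have hβ0 : 0 < β := by positivity
  set C : ℝ := (256 * D ^ 14) ^ 2 with hC
  have hC0 : 0 < C := by positivity
  obtain ⟨k, hk⟩ := exists_nat_gt (16 * C * β * Real.exp (4 * β))
  have hk' : (0 : ℝ) < k := lt_trans (by positivity) hk
  have hk0 : 0 < k := by exact_mod_cast hk'
  have hb : 0 < β / k := by positivity
  set q : ℝ := (1 + β / k)⁻¹ with hq
  have hq0 : 0 < q := by positivity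
  have hq1 : q ≤ 1 := inv_le_one_of_one_le₀ (by linarith)
  set κ : ℝ := 4 * (β / k) * Real.exp (4 * β) with hκ
  have hκ0 : 0 ≤ κ := by positivity
  refine ⟨k, 2 * k ^ 2, q, κ, hk0, rfl, hq0.le, hq1, hκ0, ?_, ?_⟩
  · have h1 : 1 - q ≤ β / k := by
      have : q * (1 + β / k) = 1 := inv_mul_cancel₀ (by positivity)
      nlinarith
    have h2 : 1 ≤ Real.exp (4 * β) * q ^ (k + 3) := by
      have h3 : q ^ (4 * k) ≤ q ^ (k + 3) := pow_le_pow_of_le_one hq0.le hq1 (by omega)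
      have h4 : (1 + β / k) ^ (4 * k) ≤ Real.exp (4 * β) := by
        calc _ ≤ Real.exp (β / k) ^ (4 * k) := by
              gcongr
              linarith [Real.add_one_le_exp (β / k)]
          _ = _ := by
              rw [← Real.exp_nat_mul]
              congr 1
              push_cast
              field_simp
      have h5 : (1 + β / k) ^ (4 * k) * q ^ (4 * k) = 1 := by
        rw [← mul_pow, mul_inv_cancel₀ (by positivity), one_pow]
      calc 1 = _ := h5.symm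
        _ ≤ _ := by gcongr
    calc 4 * (1 - q) ≤ 4 * (β / k) * 1 := by linarith
      _ ≤ 4 * (β / k) * (Real.exp (4 * β) * q ^ (k + 3)) := by gcongr
      _ = _ := by ring
  · set m := 2 * k ^ 2 with hm
    have hm0 : 0 < m := by positivity
    have hA : (D : ℝ) ^ 18 * q ^ k ≤ 1 / 4 := by
      have h1 : 1 + β ≤ (1 + β / k) ^ k := by
        have := one_add_mul_le_pow (a := β / k) (by linarith) k
        rwa [mul_div_cancel₀ _ hk'.ne'] at this
      rw [hq, inv_pow, ← div_eq_mul_inv, div_le_div_iff₀ (by positivity) (by norm_num)]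
      linarith
    have hB : C * κ ≤ 1 / 4 := by
      rw [hκ, show C * (4 * (β / k) * Real.exp (4 * β)) = 4 * C * β * Real.exp (4 * β) / k by ring,
        div_le_div_iff₀ hk' (by norm_num)]
      linarith
    have hA' : ((D : ℝ) ^ 18 * q ^ k) ^ m ≤ 1 / 4 :=
      (pow_le_of_le_one (by positivity) (by linarith) hm0.ne').trans hA
    have hB' : (C * κ) ^ (k ^ 2) ≤ 1 / 4 :=
      (pow_le_of_le_one (by positivity) (by linarith) (by positivity)).trans hB
    have hE : (4 * m * k + 1 : ℝ) ≤ 32 ^ m := by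
      have h1 : m ≤ 2 ^ m := Nat.lt_two_pow_self.le
      have h2 : k ≤ m := by rw [hm]; nlinarith
      have h3 : 8 ≤ 8 ^ m := Nat.le_self_pow hm0.ne' 8
      have h4 : 4 * m * k + 1 ≤ 32 ^ m := by
        calc 4 * m * k + 1 ≤ 8 * (m * m) := by nlinarith
          _ ≤ 8 ^ m * (2 ^ m * 2 ^ m) := by gcongr
          _ = 32 ^ m := by rw [← mul_pow, ← mul_pow]; norm_num
      exact_mod_cast h4
    have hF : (D : ℝ) ^ (12 * m) * (D ^ (2 * m) * (8 ^ m * (32 ^ m * κ ^ (k ^ 2))))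
        = (C * κ) ^ (k ^ 2) := by
      rw [mul_pow C κ, hC, ← pow_mul, ← hm, mul_pow (256 : ℝ), show (256 : ℝ) = 8 * 32 by norm_num,
        mul_pow (8 : ℝ)]
      ring
    have hG : (D : ℝ) ^ (12 * m) * (D ^ (2 * m) * (D ^ (4 * m) * q ^ (m * k)))
        = ((D : ℝ) ^ 18 * q ^ k) ^ m := by ring
    calc _ ≤ (D : ℝ) ^ (12 * m) * (D ^ (2 * m) * (D ^ (4 * m) * q ^ (m * k)
          + 8 ^ m * (32 ^ m * κ ^ (k ^ 2)))) := by gcongr
      _ = _ := by rw [mul_add, mul_add, hF, hG]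
      _ ≤ 1 / 2 := by linarith

end Vale.Agent.P184
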