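import Vale.Agent.P184.Points

/-! Bounded degree graphs: balls, paths, truncated distance, greedy rounding. -/

namespace Vale.Agent.P184

open Finset

variable {V : Type*} [DecidableEq V]

/-- A reflexive symmetric graph of bounded degree. -/
structure Gr (V : Type*) where
  N : V → Finset V
  D : ℕ
  card_le : ∀ x, (N x).card ≤ D
  symm : ∀ x y, y ∈ N x → x ∈ N y
  refl : ∀ x, x ∈ N x

/-- Paths with `n` steps from `x` (without the starting point). -/
def paths (N : V → Finset V) : ℕ → V → Finset (List V)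
  | 0, _ => {[]}
  | n + 1, x => (N x).biUnion fun y => (paths N n y).image (y :: ·)

theorem mem_paths_zero {N : V → Finset V} {x : V} {l : List V} : l ∈ paths N 0 x ↔ l = [] := by
  simp [paths]

theorem mem_paths_succ {N : V → Finset V} {n : ℕ} {x : V} {l : List V} :
    l ∈ paths N (n + 1) x ↔ ∃ y ∈ N x, ∃ l' ∈ paths N n y, y :: l' = l := by
  simp [paths]

theorem card_paths {N : V → Finset V} {D : ℕ} (h : ∀ x, (N x).card ≤ D) (n : ℕ) (x : V) :
    (paths N n x).card ≤ D ^ n := by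
  induction n generalizing x with
  | zero => simp [paths]
  | succ n ih =>
    refine (card_biUnion_le_card_mul _ _ (D ^ n) fun y _ => card_image_le.trans (ih y)).trans ?_
    rw [pow_succ, mul_comm]
    exact Nat.mul_le_mul_left _ (h x)

theorem length_of_mem_paths {N : V → Finset V} {n : ℕ} {x : V} {l : List V}
    (h : l ∈ paths N n x) : l.length = n := by
  induction n generalizing x l with
  | zero => simp [mem_paths_zero.1 h]
  | succ n ih =>
    obtain ⟨y, _, l', h', rfl⟩ := mem_paths_succ.1 h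
    simp [ih h']

theorem map_mem_paths {N : V → Finset V} {γ : V → V} (hγ : ∀ x y, y ∈ N x → γ y ∈ N (γ x))
    {n : ℕ} {x : V} {l : List V} (h : l ∈ paths N n x) : l.map γ ∈ paths N n (γ x) := by
  induction n generalizing x l with
  | zero => simp [mem_paths_zero.1 h, mem_paths_zero]
  | succ n ih =>
    obtain ⟨y, hy, l', h', rfl⟩ := mem_paths_succ.1 h
    exact mem_paths_succ.2 ⟨γ y, hγ _ _ hy, _, ih h', rfl⟩

namespace Gr

variable (Γ : Gr V)

/-- Balls. -/
def ball : ℕ → V → Finset V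
  | 0, a => {a}
  | r + 1, a => (ball r a).biUnion Γ.N

variable {Γ}

theorem mem_ball_zero {a x : V} : x ∈ Γ.ball 0 a ↔ x = a := by simp [ball]

theorem mem_ball_succ {r : ℕ} {a x : V} : x ∈ Γ.ball (r + 1) a ↔ ∃ y ∈ Γ.ball r a, x ∈ Γ.N y := by
  simp [ball]

omit [DecidableEq V] in
theorem one_le_D (x : V) : 1 ≤ Γ.D :=
  (card_pos.2 ⟨x, Γ.refl x⟩).trans_le (Γ.card_le x)

theorem card_ball (r : ℕ) (a : V) : (Γ.ball r a).card ≤ Γ.D ^ r := by
  induction r with
  | zero => simp [ball]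
  | succ r ih =>
    refine (card_biUnion_le_card_mul _ _ Γ.D fun y _ => Γ.card_le y).trans ?_
    rw [pow_succ]
    exact Nat.mul_le_mul_right _ ih

theorem ball_mono {r s : ℕ} (h : r ≤ s) {a x : V} (hx : x ∈ Γ.ball r a) : x ∈ Γ.ball s a := by
  induction h with
  | refl => exact hx
  | step _ ih => exact mem_ball_succ.2 ⟨x, ih, Γ.refl x⟩

theorem mem_ball_self (r : ℕ) (a : V) : a ∈ Γ.ball r a :=
  ball_mono (Nat.zero_le r) (mem_ball_zero.2 rfl)

theorem ball_trans {r s : ℕ} {x y z : V} (h1 : y ∈ Γ.ball r x) (h2 : z ∈ Γ.ball s y) :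
    z ∈ Γ.ball (r + s) x := by
  induction s generalizing z with
  | zero => rwa [mem_ball_zero.1 h2]
  | succ s ih =>
    obtain ⟨w, hw, hz⟩ := mem_ball_succ.1 h2
    exact mem_ball_succ.2 ⟨w, ih hw, hz⟩

theorem ball_trans' {r s t : ℕ} {x y z : V} (h1 : y ∈ Γ.ball r x) (h2 : z ∈ Γ.ball s y)
    (h : r + s ≤ t) : z ∈ Γ.ball t x := ball_mono h (ball_trans h1 h2)

theorem mem_ball_one {x y : V} (h : y ∈ Γ.N x) : y ∈ Γ.ball 1 x :=
  mem_ball_succ.2 ⟨x, mem_ball_zero.2 rfl, h⟩

theorem ball_symm {r : ℕ} {x y : V} (h : y ∈ Γ.ball r x) : x ∈ Γ.ball r y := by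
  induction r generalizing y with
  | zero => rw [mem_ball_zero] at h ⊢; exact h.symm
  | succ r ih =>
    obtain ⟨w, hw, hy⟩ := mem_ball_succ.1 h
    exact ball_trans' (mem_ball_one (Γ.symm _ _ hy)) (ih hw) (by omega)

theorem mem_ball_of_paths {n : ℕ} {x : V} {l : List V} (h : l ∈ paths Γ.N n x) :
    ∀ y ∈ x :: l, y ∈ Γ.ball n x := by
  induction n generalizing x l with
  | zero => simp [mem_paths_zero.1 h, mem_ball_zero]
  | succ n ih =>
    obtain ⟨y, hy, l', h', rfl⟩ := mem_paths_succ.1 h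
    intro z hz
    rcases List.mem_cons.1 hz with rfl | hz
    · exact mem_ball_self _ _
    · exact ball_trans' (mem_ball_one hy) (ih h' z hz) (by omega)

/-- Graph automorphisms. -/
def Aut (Γ : Gr V) (γ : V ≃ V) : Prop := ∀ x y, γ y ∈ Γ.N (γ x) ↔ y ∈ Γ.N x

omit [DecidableEq V] in
theorem Aut.symm {γ : V ≃ V} (h : Γ.Aut γ) : Γ.Aut γ.symm := fun x y => by
  rw [← h]
  simp

theorem Aut.ball_of {γ : V ≃ V} (h : Γ.Aut γ) {r : ℕ} {x y : V} (hy : y ∈ Γ.ball r x) :
    γ y ∈ Γ.ball r (γ x) := by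
  induction r generalizing y with
  | zero => rw [mem_ball_zero] at hy ⊢; rw [hy]
  | succ r ih =>
    obtain ⟨w, hw, hy⟩ := mem_ball_succ.1 hy
    exact mem_ball_succ.2 ⟨γ w, ih hw, (h _ _).2 hy⟩

theorem Aut.ball_iff {γ : V ≃ V} (h : Γ.Aut γ) {r : ℕ} {x y : V} :
    γ y ∈ Γ.ball r (γ x) ↔ y ∈ Γ.ball r x :=
  ⟨fun hy => by simpa using h.symm.ball_of hy, h.ball_of⟩

variable (Γ) in
/-- Truncated distance. -/
def dd (R : ℕ) (a x : V) : ℕ := Nat.find (⟨R, Or.inl le_rfl⟩ : ∃ r, R ≤ r ∨ x ∈ Γ.ball r a)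

theorem dd_le_iff {R r : ℕ} {a x : V} : Γ.dd R a x ≤ r ↔ R ≤ r ∨ x ∈ Γ.ball r a := by
  rw [dd, Nat.find_le_iff]
  constructor
  · rintro ⟨s, hs, h | h⟩
    · exact Or.inl (h.trans hs)
    · exact Or.inr (ball_mono hs h)
  · exact fun h => ⟨r, le_rfl, h⟩

theorem dd_le (R : ℕ) (a x : V) : Γ.dd R a x ≤ R := dd_le_iff.2 (Or.inl le_rfl)

theorem dd_step {R : ℕ} {a x y : V} (h : y ∈ Γ.N x) : Γ.dd R a y ≤ Γ.dd R a x + 1 := by
  rcases (dd_le_iff (Γ := Γ) (R := R) (a := a) (x := x)).1 le_rfl with h1 | h1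
  · exact dd_le_iff.2 (Or.inl (by omega))
  · exact dd_le_iff.2 (Or.inr (mem_ball_succ.2 ⟨x, h1, h⟩))

theorem dd_lip {R : ℕ} (a x y : V) (h : y ∈ Γ.N x) :
    |(Γ.dd R a y : ℝ) - Γ.dd R a x| ≤ 1 := by
  have h1 : (Γ.dd R a y : ℝ) ≤ Γ.dd R a x + 1 := by exact_mod_cast dd_step h
  have h2 : (Γ.dd R a x : ℝ) ≤ Γ.dd R a y + 1 := by exact_mod_cast dd_step (Γ.symm _ _ h)
  rw [abs_le]
  constructor <;> linarith

theorem dd_eq_of_not_mem {R : ℕ} {a x : V} (h : x ∉ Γ.ball R a) : Γ.dd R a x = R := by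
  refine le_antisymm (dd_le _ _ _) ?_
  rcases (dd_le_iff (Γ := Γ) (R := R) (a := a) (x := x)).1 le_rfl with h1 | h1
  · exact h1
  · exact absurd (ball_mono (dd_le _ _ _) h1) h

theorem Aut.dd {γ : V ≃ V} (h : Γ.Aut γ) (R : ℕ) (a x : V) :
    Γ.dd R (γ a) (γ x) = Γ.dd R a x :=
  eq_of_forall_ge_iff fun r => by rw [dd_le_iff, dd_le_iff, h.ball_iff]

end Gr

/-! ### Greedy rounding -/

/-- The finite net of rounded monotone sequences. -/
def net : ℕ → ℕ → Finset (List ℕ)
  | 0, _ => {[]}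
  | n + 1, M => (range (M + 1)).biUnion fun i =>
      (net n i).image (i :: ·) ∪ (net n i).image ((i + 1) :: ·)

theorem card_net (n M : ℕ) : (net n M).card ≤ 4 ^ n * 2 ^ M := by
  induction n generalizing M with
  | zero => simpa [net] using Nat.one_le_two_pow
  | succ n ih =>
    refine card_biUnion_le.trans ?_
    calc _ ≤ ∑ i ∈ range (M + 1), 2 * 4 ^ n * 2 ^ i := by
          refine sum_le_sum fun i _ => (card_union_le _ _).trans ?_
          have h1 := (card_image_le (s := net n i) (f := (i :: ·))).trans (ih i)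
          have h2 := (card_image_le (s := net n i) (f := ((i + 1) :: ·))).trans (ih i)
          linarith
      _ ≤ 4 ^ (n + 1) * 2 ^ M := by
          rw [← mul_sum]
          have : ∑ i ∈ range (M + 1), 2 ^ i ≤ 2 * 2 ^ M := by
            have := Nat.geomSum_lt (m := 2) le_rfl (s := range (M + 1)) (n := M + 1)
              (fun k hk => mem_range.1 hk)
            rw [pow_succ] at this
            omega
          calc _ ≤ 2 * 4 ^ n * (2 * 2 ^ M) := Nat.mul_le_mul_left _ this
            _ = _ := by ring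

/-- Value of the distance functional at a net point. -/
noncomputable def gv (m : ℕ) (d : V → ℝ) : V → List V → List ℕ → ℝ
  | x, y :: l, n :: ν => n / m * (d y - d x) + gv m d y l ν
  | _, _, _ => 0

/-- The linear functional with given values on vertices. -/
noncomputable def lf (d : V → ℝ) : (V →₀ ℝ) →ₗ[ℝ] ℝ := Finsupp.linearCombination ℝ d

omit [DecidableEq V] in
@[simp] theorem lf_single (d : V → ℝ) (x : V) (r : ℝ) : lf d (Finsupp.single x r) = r * d x := by
  simp [lf]

omit [DecidableEq V] in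
theorem lf_mono {d d' : V → ℝ} {p : V →₀ ℝ} (hp : ∀ x, 0 ≤ p x)
    (h : ∀ x ∈ p.support, d x ≤ d' x) : lf d p ≤ lf d' p := by
  simp only [lf, Finsupp.linearCombination_apply, Finsupp.sum, smul_eq_mul]
  exact sum_le_sum fun x hx => mul_le_mul_of_nonneg_left (h x hx) (hp x)

omit [DecidableEq V] in
theorem lf_const (c : ℝ) (p : V →₀ ℝ) : lf (fun _ => c) p = eps V p * c := by
  simp only [lf, eps, Finsupp.linearCombination_apply, Finsupp.sum, smul_eq_mul, sum_mul,
    mul_one]

omit [DecidableEq V] in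
theorem eps_nonneg {p : V →₀ ℝ} (hp : ∀ x, 0 ≤ p x) : 0 ≤ eps V p := by
  have := lf_mono (d := fun _ => 0) (d' := fun _ => 1) hp (by simp)
  simpa [lf_const] using this

theorem rounding {N : V → Finset V} {m : ℕ} (hm : 0 < m) (d : V → V → ℝ)
    (hd : ∀ a x y, y ∈ N x → |d a y - d a x| ≤ 1) (A : Finset V) {n : ℕ} {x : V} {l : List V}
    (hl : l ∈ paths N n x) {p : V →₀ ℝ} (hp : Sup (x :: l) p) {M : ℕ}
    (hM : m * eps V p < M + 1) (z : V → ℝ) :
    ∃ ν ∈ net n M, (∀ a, |lf (d a) p - eps V p * d a x - gv m (d a) x l ν| ≤ n / m) ∧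
      ∑ a ∈ A, (z a + (lf (d a) p - eps V p * d a x - gv m (d a) x l ν)) ^ 2
        ≤ ∑ a ∈ A, z a ^ 2 + n * (A.card / m ^ 2) := by
  have hm' : (0 : ℝ) < m := by exact_mod_cast hm
  induction n generalizing x l p M z with
  | zero =>
    obtain rfl := mem_paths_zero.1 hl
    have h1 : p = Finsupp.single x (p x) := by
      ext y
      by_cases hy : y = x
      · simp [hy]
      · rw [hp.2 y (by simpa using hy), Finsupp.single_eq_of_ne hy]
    refine ⟨[], by simp [net], ?_⟩
    rw [h1]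
    simp [gv]
  | succ n ih =>
    obtain ⟨y, hy, l', hl', rfl⟩ := mem_paths_succ.1 hl
    set p' := p.erase x with hp'
    have h1 : p = Finsupp.single x (p x) + p' := (Finsupp.single_add_erase x p).symm
    have hS : Sup (y :: l') p' := by
      refine ⟨fun w => ?_, fun w hw => ?_⟩
      · rw [hp', Finsupp.erase_apply]
        split_ifs
        · exact le_rfl
        · exact hp.1 w
      · rw [hp', Finsupp.erase_apply]
        split_ifs with h
        · rfl
        · exact hp.2 w (by simpa [h] using hw)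
    set s := eps V p' with hs
    have hs0 : 0 ≤ s := eps_nonneg hS.1
    have he : eps V p = p x + s := by
      conv_lhs => rw [h1]
      simp [hs]
    have hf : ∀ a, lf (d a) p = p x * d a x + lf (d a) p' := by
      intro a
      conv_lhs => rw [h1]
      simp
    set i := ⌊m * s⌋₊ with hi
    have hi1 : (i : ℝ) ≤ m * s := Nat.floor_le (by positivity)
    have hi2 : m * s < i + 1 := Nat.lt_floor_add_one _
    have hiM : i < M + 1 := by
      have : (i : ℝ) < M + 1 := by
        have := hp.1 x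
        rw [he] at hM
        nlinarith
      exact_mod_cast this
    have key : ∃ j : ℕ, (j = i ∨ j = i + 1) ∧ |s - j / m| ≤ 1 / m ∧
        (s - j / m) * ∑ a ∈ A, z a * (d a y - d a x) ≤ 0 := by
      have e1 : 0 ≤ s - i / m := by rw [sub_nonneg, div_le_iff₀ hm']; linarith
      have e2 : s - i / m ≤ 1 / m := by
        rw [sub_le_iff_le_add, ← add_div, le_div_iff₀ hm']; linarith
      have e3 : s - ((i + 1 : ℕ) : ℝ) / m = s - i / m - 1 / m := by push_cast; ring
      rcases le_total (∑ a ∈ A, z a * (d a y - d a x)) 0 with h | h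
      · exact ⟨i, Or.inl rfl, by rw [abs_of_nonneg e1]; exact e2, mul_nonpos_of_nonneg_of_nonpos e1 h⟩
      · refine ⟨i + 1, Or.inr rfl, ?_, mul_nonpos_of_nonpos_of_nonneg (by linarith) h⟩
        rw [e3, abs_of_nonpos (by linarith)]
        linarith
    obtain ⟨j, hj, hj1, hj2⟩ := key
    set t := s - j / m with ht
    obtain ⟨ν, hν, h2, h3⟩ := ih hl' hS (M := i) hi2 (fun a => z a + t * (d a y - d a x))
    have hb : ∀ a, |t * (d a y - d a x)| ≤ 1 / m := by
      intro a
      rw [abs_mul]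
      calc _ ≤ 1 / (m : ℝ) * 1 := mul_le_mul hj1 (hd a x y hy) (abs_nonneg _) (by positivity)
        _ = _ := mul_one _
    have herr : ∀ a, lf (d a) p - eps V p * d a x - gv m (d a) x (y :: l') (j :: ν)
        = t * (d a y - d a x) + (lf (d a) p' - s * d a y - gv m (d a) y l' ν) := by
      intro a
      rw [hf, he, gv, ht]
      ring
    refine ⟨j :: ν, ?_, fun a => ?_, ?_⟩
    · simp only [net, mem_biUnion, mem_range, mem_union, mem_image]
      rcases hj with rfl | rfl
      · exact ⟨i, hiM, Or.inl ⟨ν, hν, rfl⟩⟩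
      · exact ⟨i, hiM, Or.inr ⟨ν, hν, rfl⟩⟩
    · rw [herr]
      refine (abs_add_le _ _).trans ?_
      have := add_le_add (hb a) (h2 a)
      push_cast
      rw [add_div]
      linarith
    · simp only [herr, ← add_assoc]
      refine h3.trans ?_
      have h4 : ∑ a ∈ A, (z a + t * (d a y - d a x)) ^ 2
          ≤ ∑ a ∈ A, (z a ^ 2 + 2 * (t * (z a * (d a y - d a x))) + 1 / m ^ 2) := by
        refine sum_le_sum fun a _ => ?_
        have h5 : (t * (d a y - d a x)) ^ 2 ≤ (1 / m) ^ 2 := sq_le_sq' (abs_le.1 (hb a)).1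
          (abs_le.1 (hb a)).2
        rw [div_pow, one_pow] at h5
        nlinarith
      rw [sum_add_distrib, sum_add_distrib, ← mul_sum, ← mul_sum, sum_const, nsmul_eq_mul] at h4
      push_cast
      have : (A.card : ℝ) * (1 / m ^ 2) = A.card / m ^ 2 := by ring
      nlinarith

end Vale.Agent.P184
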