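import Vale.Agent.P184.Graph

/-! Random label maps: definitions, equivariance, locality. -/

namespace Vale.Agent.P184

open Finset Classical

variable {V : Type*}

/-- Uniform point on a finite set. -/
noncomputable def upt (v₀ : V) (A : Finset V) : Pt V :=
  if h : A.Nonempty then ⟨(A.card : ℝ)⁻¹ • ∑ a ∈ A, Finsupp.single a 1, by
    rw [map_smul, map_sum]
    simp only [eps_single, sum_const, nsmul_eq_mul, mul_one, smul_eq_mul]
    exact inv_mul_cancel₀ (by exact_mod_cast h.card_pos.ne')⟩ else vt v₀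

theorem upt_map (v₀ : V) (γ : V ≃ V) {A A' : Finset V} (hA : A.Nonempty)
    (h : ∀ a, γ a ∈ A' ↔ a ∈ A) : upt v₀ A' = pmap γ (upt v₀ A) := by
  have h1 : A' = A.map γ.toEmbedding := by
    ext a
    rw [mem_map_equiv, ← h]
    simp
  subst h1
  apply Subtype.ext
  rw [upt, dif_pos (by simpa using hA), upt, dif_pos hA, pmap]
  simp

theorem upt_mem_span (v₀ : V) {A : Finset V} (hA : A.Nonempty) {s : Set (V →₀ ℝ)}
    (h : ∀ a ∈ A, Finsupp.single a 1 ∈ s) : (upt v₀ A).1 ∈ Submodule.span ℝ s := by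
  rw [upt, dif_pos hA]
  exact Submodule.smul_mem _ _ (Submodule.sum_mem _ fun a ha => Submodule.subset_span (h a ha))

theorem Pt.supp_nonempty (p : Pt V) : p.1.support.Nonempty := by
  rw [Finsupp.support_nonempty_iff]
  intro h
  have := p.2
  rw [h] at this
  simp at this

theorem pmap_apply (γ : V ≃ V) (p : Pt V) (x : V) : (pmap γ p).1 (γ x) = p.1 x := by
  simp [pmap]

theorem mem_supp_pmap (γ : V ≃ V) (p : Pt V) (x : V) :
    γ x ∈ (pmap γ p).1.support ↔ x ∈ p.1.support := by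
  rw [Finsupp.mem_support_iff, pmap_apply, Finsupp.mem_support_iff]

theorem lf_pmap (γ : V → V) (d : V → ℝ) (p : Pt V) : lf d (pmap γ p).1 = lf (d ∘ γ) p.1 := by
  simp [pmap, lf, Finsupp.linearCombination_mapDomain]

namespace Gr

variable (Γ : Gr V) (m k : ℕ)

/-- Score of the centre `a` at the point `p`. -/
noncomputable def score (ω : V → Fin (m * k + 1)) (a : V) (p : Pt V) : ℝ :=
  (ω a : ℕ) - k * lf (fun x => Γ.dd (3 * m) a x) p.1

/-- Neighbourhood of the support of a point. -/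
noncomputable def nbh (r : ℕ) (p : Pt V) : Finset V := p.1.support.biUnion (Γ.ball r)

/-- Centres of maximal score. -/
noncomputable def amax (ω : V → Fin (m * k + 1)) (p : Pt V) : Finset V :=
  (Γ.nbh (3 * m) p).filter fun a => ∀ a' ∈ Γ.nbh (3 * m) p,
    Γ.score m k ω a' p ≤ Γ.score m k ω a p

/-- Centres of almost maximal score. -/
noncomputable def near (ω : V → Fin (m * k + 1)) (x : V) (p : Pt V) : Finset V :=
  (Γ.ball (4 * m) x).filter fun a => ∀ a' ∈ Γ.ball (4 * m) x,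
    Γ.score m k ω a' p ≤ Γ.score m k ω a p + 1

/-- Good cells. -/
def good (ω : V → Fin (m * k + 1)) (x : V) (l : List V) : Prop :=
  ∀ p : Pt V, Sup (x :: l) p.1 → (Γ.near m k ω x p).card < m

/-- Bad vertices. -/
def bad (ω : V → Fin (m * k + 1)) (v : V) : Prop :=
  ∃ x ∈ Γ.ball m v, ∃ l ∈ paths Γ.N m x, ¬ Γ.good m k ω x l

/-- Clusters of bad vertices. -/
def clus (ω : V → Fin (m * k + 1)) : V → V → Prop :=
  Relation.ReflTransGen fun a b => b ∈ Γ.ball (2 * m) a ∧ Γ.bad m k ω b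

/-- Small clusters. -/
def small (s : ℕ) (ω : V → Fin (m * k + 1)) (x : V) : Prop :=
  ∀ y z, Γ.clus m k ω x y → Γ.clus m k ω x z → z ∈ Γ.ball s y

/-- The cluster seen from a point. -/
noncomputable def cl (s : ℕ) (ω : V → Fin (m * k + 1)) (p : Pt V) : Finset V :=
  (Γ.nbh s p).filter fun y => ∃ x ∈ p.1.support, Γ.clus m k ω x y

/-- The unhealed label map. -/
noncomputable def lab1 (v₀ : V) (ω : V → Fin (m * k + 1)) (p : Pt V) : Pt V :=
  upt v₀ (Γ.amax m k ω p)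

/-- Points where the label is healed. -/
def heal (s : ℕ) (ω : V → Fin (m * k + 1)) (p : Pt V) : Prop :=
  ∀ x ∈ p.1.support, Γ.bad m k ω x ∧ Γ.small m k s ω x

/-- The healed label map. -/
noncomputable def lab (v₀ : V) (s : ℕ) (ω : V → Fin (m * k + 1)) (p : Pt V) : Pt V :=
  if Γ.heal m k s ω p then upt v₀ (Γ.cl m k s ω p) else Γ.lab1 m k v₀ ω p

variable {Γ m k}

theorem mem_nbh {r : ℕ} {p : Pt V} {a : V} :
    a ∈ Γ.nbh r p ↔ ∃ x ∈ p.1.support, a ∈ Γ.ball r x := by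
  rw [nbh, mem_biUnion]

theorem mem_amax {ω : V → Fin (m * k + 1)} {p : Pt V} {a : V} :
    a ∈ Γ.amax m k ω p ↔ a ∈ Γ.nbh (3 * m) p ∧ ∀ a' ∈ Γ.nbh (3 * m) p,
      Γ.score m k ω a' p ≤ Γ.score m k ω a p := by
  simp only [amax, mem_filter]

theorem mem_near {ω : V → Fin (m * k + 1)} {x : V} {p : Pt V} {a : V} :
    a ∈ Γ.near m k ω x p ↔ a ∈ Γ.ball (4 * m) x ∧ ∀ a' ∈ Γ.ball (4 * m) x,
      Γ.score m k ω a' p ≤ Γ.score m k ω a p + 1 := by
  simp only [near, mem_filter]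

theorem mem_cl {s : ℕ} {ω : V → Fin (m * k + 1)} {p : Pt V} {y : V} :
    y ∈ Γ.cl m k s ω p ↔ y ∈ Γ.nbh s p ∧ ∃ x ∈ p.1.support, Γ.clus m k ω x y := by
  simp only [cl, mem_filter]

theorem amax_nonempty (ω : V → Fin (m * k + 1)) (p : Pt V) : (Γ.amax m k ω p).Nonempty := by
  obtain ⟨x, hx⟩ := p.supp_nonempty
  obtain ⟨a, ha, h⟩ := exists_max_image (Γ.nbh (3 * m) p) (fun a => Γ.score m k ω a p)
    ⟨x, mem_nbh.2 ⟨x, hx, mem_ball_self _ _⟩⟩
  exact ⟨a, mem_amax.2 ⟨ha, h⟩⟩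

theorem cl_nonempty (s : ℕ) (ω : V → Fin (m * k + 1)) (p : Pt V) :
    (Γ.cl m k s ω p).Nonempty := by
  obtain ⟨x, hx⟩ := p.supp_nonempty
  exact ⟨x, mem_cl.2 ⟨mem_nbh.2 ⟨x, hx, mem_ball_self _ _⟩, x, hx, .refl⟩⟩

/-! ### Equivariance -/

section equiv

variable {γ : V ≃ V} (h : Γ.Aut γ)
include h

theorem Aut.score (ω : V → Fin (m * k + 1)) (a : V) (p : Pt V) :
    Γ.score m k ω (γ a) (pmap γ p) = Γ.score m k (ω ∘ γ) a p := by
  simp only [Gr.score, lf_pmap, Function.comp_def, h.dd]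

theorem Aut.nbh (r : ℕ) (p : Pt V) (a : V) : γ a ∈ Γ.nbh r (pmap γ p) ↔ a ∈ Γ.nbh r p := by
  rw [mem_nbh, mem_nbh, γ.surjective.exists]
  simp only [mem_supp_pmap, h.ball_iff]

theorem Aut.amax (ω : V → Fin (m * k + 1)) (p : Pt V) (a : V) :
    γ a ∈ Γ.amax m k ω (pmap γ p) ↔ a ∈ Γ.amax m k (ω ∘ γ) p := by
  rw [mem_amax, mem_amax, γ.surjective.forall]
  simp only [h.nbh, h.score]

theorem Aut.near (ω : V → Fin (m * k + 1)) (x : V) (p : Pt V) (a : V) :
    γ a ∈ Γ.near m k ω (γ x) (pmap γ p) ↔ a ∈ Γ.near m k (ω ∘ γ) x p := by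
  rw [mem_near, mem_near, γ.surjective.forall]
  simp only [h.ball_iff, h.score]

theorem Aut.good {ω : V → Fin (m * k + 1)} {x : V} {l : List V}
    (hg : Γ.good m k ω (γ x) (l.map γ)) : Γ.good m k (ω ∘ γ) x l := by
  intro p hp
  have h1 : Sup (γ x :: l.map γ) (pmap γ p).1 := by
    constructor
    · rw [γ.surjective.forall]
      simpa only [pmap_apply] using hp.1
    · rw [γ.surjective.forall]
      intro y hy
      rw [pmap_apply]
      apply hp.2
      intro hy'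
      exact hy (by rw [← List.map_cons]; exact List.mem_map_of_mem hy')
  refine lt_of_le_of_lt ?_ (hg _ h1)
  exact card_le_card_of_injOn γ (fun a ha => (h.near ω x p a).2 ha) γ.injective.injOn

theorem Aut.bad_of {ω : V → Fin (m * k + 1)} {v : V} (hb : Γ.bad m k (ω ∘ γ) v) :
    Γ.bad m k ω (γ v) := by
  obtain ⟨x, hx, l, hl, hg⟩ := hb
  exact ⟨γ x, h.ball_of hx, l.map γ, map_mem_paths (fun x y => (h x y).2) hl,
    fun hg' => hg (h.good hg')⟩

theorem Aut.bad (ω : V → Fin (m * k + 1)) (v : V) :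
    Γ.bad m k ω (γ v) ↔ Γ.bad m k (ω ∘ γ) v := by
  refine ⟨fun hb => ?_, h.bad_of⟩
  have := h.symm.bad_of (ω := ω ∘ γ) (v := γ v) (by simpa [Function.comp_def] using hb)
  simpa using this

theorem Aut.clus_of {ω : V → Fin (m * k + 1)} {x y : V} (hb : Γ.clus m k (ω ∘ γ) x y) :
    Γ.clus m k ω (γ x) (γ y) := by
  induction hb with
  | refl => exact .refl
  | tail _ h2 ih => exact ih.tail ⟨h.ball_of h2.1, h.bad_of h2.2⟩

theorem Aut.clus (ω : V → Fin (m * k + 1)) (x y : V) :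
    Γ.clus m k ω (γ x) (γ y) ↔ Γ.clus m k (ω ∘ γ) x y := by
  refine ⟨fun hb => ?_, h.clus_of⟩
  have := h.symm.clus_of (ω := ω ∘ γ) (x := γ x) (y := γ y)
    (by simpa [Function.comp_def] using hb)
  simpa using this

theorem Aut.small (s : ℕ) (ω : V → Fin (m * k + 1)) (x : V) :
    Γ.small m k s ω (γ x) ↔ Γ.small m k s (ω ∘ γ) x := by
  unfold Gr.small
  rw [γ.surjective.forall₂]
  simp only [h.clus, h.ball_iff]

theorem Aut.cl (s : ℕ) (ω : V → Fin (m * k + 1)) (p : Pt V) (a : V) :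
    γ a ∈ Γ.cl m k s ω (pmap γ p) ↔ a ∈ Γ.cl m k s (ω ∘ γ) p := by
  rw [mem_cl, mem_cl, γ.surjective.exists]
  simp only [h.nbh, h.clus, mem_supp_pmap]

theorem Aut.lab (v₀ : V) (s : ℕ) (ω : V → Fin (m * k + 1)) (p : Pt V) :
    Γ.lab m k v₀ s ω (pmap γ p) = pmap γ (Γ.lab m k v₀ s (ω ∘ γ) p) := by
  have h1 : Γ.heal m k s ω (pmap γ p) ↔ Γ.heal m k s (ω ∘ γ) p := by
    unfold heal
    rw [γ.surjective.forall]
    simp only [mem_supp_pmap, h.bad, h.small]
  unfold Gr.lab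
  rw [h1]
  split_ifs
  · exact upt_map v₀ γ (cl_nonempty _ _ _) (h.cl s ω p)
  · exact upt_map v₀ γ (amax_nonempty _ _) (h.amax ω p)

end equiv

/-! ### Locality -/

theorem score_congr {ω ω' : V → Fin (m * k + 1)} {a : V} (h : ω a = ω' a) (p : Pt V) :
    Γ.score m k ω a p = Γ.score m k ω' a p := by
  simp only [score, h]

theorem good_congr {ω ω' : V → Fin (m * k + 1)} {x : V}
    (h : ∀ a ∈ Γ.ball (4 * m) x, ω a = ω' a) (l : List V) :
    Γ.good m k ω x l ↔ Γ.good m k ω' x l := by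
  have : ∀ p, Γ.near m k ω x p = Γ.near m k ω' x p := fun p => by
    ext a
    rw [mem_near, mem_near]
    exact and_congr_right fun ha => forall₂_congr fun a' ha' => by
      rw [score_congr (h a ha), score_congr (h a' ha')]
  simp only [good, this]

theorem bad_congr {ω ω' : V → Fin (m * k + 1)} {v : V}
    (h : ∀ a ∈ Γ.ball (5 * m) v, ω a = ω' a) : Γ.bad m k ω v ↔ Γ.bad m k ω' v := by
  refine exists_congr fun x => and_congr_right fun hx => exists_congr fun l => ?_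
  rw [good_congr fun a ha => h a (ball_trans' hx ha (by omega))]

theorem clus_congr {s : ℕ} {ω ω' : V → Fin (m * k + 1)} {x : V}
    (h : ∀ a ∈ Γ.ball (s + 7 * m) x, ω a = ω' a) (hs : Γ.small m k s ω x) (y : V) :
    Γ.clus m k ω x y ↔ Γ.clus m k ω' x y := by
  have hb : ∀ y z, Γ.clus m k ω x y → z ∈ Γ.ball (2 * m) y →
      (Γ.bad m k ω z ↔ Γ.bad m k ω' z) := fun y z hy hz =>
    bad_congr fun a ha => h a (ball_trans' (ball_trans (hs x y .refl hy) hz) ha (by omega))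
  constructor
  · intro hy
    induction hy with
    | refl => exact .refl
    | tail h1 h2 ih => exact ih.tail ⟨h2.1, (hb _ _ h1 h2.1).1 h2.2⟩
  · intro hy
    induction hy with
    | refl => exact .refl
    | tail h1 h2 ih => exact ih.tail ⟨h2.1, (hb _ _ ih h2.1).2 h2.2⟩

theorem small_congr {s : ℕ} {ω ω' : V → Fin (m * k + 1)} {x : V}
    (h : ∀ a ∈ Γ.ball (s + 7 * m) x, ω a = ω' a) :
    Γ.small m k s ω x ↔ Γ.small m k s ω' x :=
  ⟨fun hs y z hy hz => hs y z ((clus_congr h hs y).2 hy) ((clus_congr h hs z).2 hz),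
    fun hs y z hy hz => hs y z ((clus_congr (fun a ha => (h a ha).symm) hs y).2 hy)
      ((clus_congr (fun a ha => (h a ha).symm) hs z).2 hz)⟩

theorem lab1_congr (v₀ : V) {ω ω' : V → Fin (m * k + 1)} {p : Pt V}
    (h : ∀ a ∈ Γ.nbh (3 * m) p, ω a = ω' a) : Γ.lab1 m k v₀ ω p = Γ.lab1 m k v₀ ω' p := by
  unfold lab1
  congr 1
  ext a
  rw [mem_amax, mem_amax]
  exact and_congr_right fun ha => forall₂_congr fun a' ha' => by
    rw [score_congr (h a ha), score_congr (h a' ha')]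

theorem lab_congr (v₀ : V) {s : ℕ} {ω ω' : V → Fin (m * k + 1)} {p : Pt V}
    (h : ∀ a ∈ Γ.nbh (s + 7 * m) p, ω a = ω' a) :
    Γ.lab m k v₀ s ω p = Γ.lab m k v₀ s ω' p := by
  have h0 : ∀ x ∈ p.1.support, ∀ a ∈ Γ.ball (s + 7 * m) x, ω a = ω' a :=
    fun x hx a ha => h a (mem_nbh.2 ⟨x, hx, ha⟩)
  have h1 : Γ.heal m k s ω p ↔ Γ.heal m k s ω' p :=
    forall₂_congr fun x hx => by
      rw [small_congr (h0 x hx), bad_congr fun a ha => h0 x hx a (ball_mono (by omega) ha)]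
  unfold lab
  rw [← h1]
  split_ifs with h2
  · congr 1
    ext y
    rw [mem_cl, mem_cl]
    exact and_congr_right fun _ => exists_congr fun x => and_congr_right fun hx =>
      clus_congr (h0 x hx) (h2 x hx).2 y
  · apply lab1_congr
    intro a ha
    obtain ⟨x, hx, ha⟩ := mem_nbh.1 ha
    exact h0 x hx a (ball_mono (by omega) ha)

end Gr

end Vale.Agent.P184
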