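import Vale.Agent.P184.Core

/-! The trace of an idempotent over the complex group ring vanishes at infinite order classes. -/

namespace Vale.Agent.P184

open Finset Classical Filter Topology

variable {G : Type*} [Group G]

/-- Right multiplication on the coset space. -/
def rmul (g : G) (v : VV g) (a : G) : VV g :=
  Quotient.map (sa := cyc g) (sb := cyc g) (· * a) (fun x y ⟨k, h⟩ => ⟨k, by rw [h, mul_assoc]⟩) v

theorem rmul_pj (g x a : G) : rmul g (pj g x) a = pj g (x * a) := rfl

/-- The Schreier graph. -/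
noncomputable def schreier (g : G) (S : Finset G) (h1 : 1 ∈ S) (hS : ∀ a ∈ S, a⁻¹ ∈ S) :
    Gr (VV g) where
  N v := S.image (rmul g v)
  D := S.card
  card_le _ := card_image_le
  symm x y h := by
    obtain ⟨a, ha, rfl⟩ := mem_image.1 h
    refine mem_image.2 ⟨a⁻¹, hS a ha, ?_⟩
    obtain ⟨x, rfl⟩ := Quotient.exists_rep x
    change pj g (x * a * a⁻¹) = pj g x
    simp
  refl x := by
    refine mem_image.2 ⟨1, h1, ?_⟩
    obtain ⟨x, rfl⟩ := Quotient.exists_rep x
    change pj g (x * 1) = pj g x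
    simp

theorem schreier_aut (g : G) (S : Finset G) (h1 : 1 ∈ S) (hS : ∀ a ∈ S, a⁻¹ ∈ S) (ν : G)
    (hν : ν * g = g * ν) : (schreier g S h1 hS).Aut (act g ν hν) := by
  intro x y
  have : ∀ a, rmul g (act g ν hν x) a = act g ν hν (rmul g x a) := by
    intro a
    obtain ⟨x, rfl⟩ := Quotient.exists_rep x
    change pj g (ν * x * a) = pj g (ν * (x * a))
    rw [mul_assoc]
  simp [schreier, this]

theorem mem_schreier (g : G) (S : Finset G) (h1 : 1 ∈ S) (hS : ∀ a ∈ S, a⁻¹ ∈ S) (y : G)
    {a : G} (ha : a ∈ S) : pj g (y * a) ∈ (schreier g S h1 hS).N (pj g y) :=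
  mem_image.2 ⟨a, ha, rfl⟩

theorem walk_path (g : G) [DecidableEq (VV g)] (S : Finset G) (h1 : 1 ∈ S)
    (hS : ∀ a ∈ S, a⁻¹ ∈ S) {k : ℕ} {y : G}
    {l : List G} (h : Walk S (k + 1) y l) :
    ∃ l' ∈ paths (schreier g S h1 hS).N k (pj g y), l.map (pj g) = pj g y :: l' := by
  induction k generalizing y l with
  | zero =>
    obtain ⟨a, -, l', rfl, h'⟩ := h
    rw [show l' = [] from h']
    exact ⟨[], mem_paths_zero.2 rfl, rfl⟩
  | succ k ih =>
    obtain ⟨a, ha, l', rfl, h'⟩ := h
    obtain ⟨l'', h2, h3⟩ := ih h'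
    exact ⟨pj g (y * a) :: l'', mem_paths_succ.2 ⟨_, mem_schreier g S h1 hS y ha, l'', h2, rfl⟩,
      by rw [List.map_cons, h3]⟩

theorem trace_eq_zero {n : Type} [Fintype n] [DecidableEq n] {e : G → Matrix n n ℂ}
    {S : Finset G} (h1 : 1 ∈ S) (hS : ∀ a ∈ S, a⁻¹ ∈ S) (hm : Merge e S) {g : G}
    (hg : ¬ IsOfFinOrder g) : ∑ a ∈ S with ∃ x, x * a * x⁻¹ = g, (e a).trace = 0 := by
  obtain ⟨Φ, hΦ1, hΦ2, hΦ3⟩ := exists_cocycle hg
  obtain ⟨j, hj, hcore⟩ := core (schreier g S h1 hS) (pj g 1)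
  obtain ⟨β, hβ1, hβ2, hβ3⟩ := hcore Φ hΦ1
  have h2 := hΦ3 e S hm j
  rw [LL_zero _ (fun _ => rfl)] at h2
  have h3 : ∀ s, LL e S g (2 * j) (del fun l => β s (l.map (pj g))) = 0 := by
    intro s
    obtain ⟨i, rfl⟩ : ∃ i, j = i + 1 := ⟨j - 1, by omega⟩
    apply LL_del_cyc (k := 2 * i + 1) hm (by simp)
    · intro ν hν l
      have := hβ1 s _ (schreier_aut g S h1 hS ν hν) (hΦ2 ν hν) (l.map (pj g))
      simp only [List.map_map] at this ⊢
      exact this
    · intro x l
      have := hβ2 s (pj g x) (l.map (pj g))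
      simpa [pj_g] using this
  have h4 := LL_tendsto (e := e) (S := S) (g := g) (k := 2 * j)
    (F := fun s => del fun l => β s (l.map (pj g)))
    (F' := fun l => Φ (wedge (l.map fun x => Finsupp.single (pj g x) 1))) (by
      intro x l hl
      obtain ⟨l', h5, h6⟩ := @walk_path _ _ g (fun a b => propDecidable (a = b)) S h1 hS _ _ _ hl
      have h7 := hβ3 _ l' h5
      rw [← h6] at h7
      simp only [del_map, phi, List.map_map] at h7
      exact h7)
  simp only [h3] at h4
  have h5 := tendsto_nhds_unique h4 tendsto_const_nhds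
  rw [h2] at h5
  simpa using h5

theorem merge_of_idem {n : Type} [Fintype n] [DecidableEq n]
    (E : Matrix n n (MonoidAlgebra ℂ G)) (hE : E * E = E) {S : Finset G}
    (hS : ∀ i j, (E i j).coeff.support ⊆ S) :
    Merge (fun h => Matrix.of fun i j => (E i j).coeff h) S := by
  intro f
  set e : G → Matrix n n ℂ := fun h => Matrix.of fun i j => (E i j).coeff h with he
  have h1 : ∀ h, e h = ∑ a ∈ S, ∑ b ∈ S, if a * b = h then e a * e b else 0 := by
    intro h
    ext i j
    conv_lhs => rw [he, ← hE]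
    simp only [Matrix.of_apply, Matrix.mul_apply, MonoidAlgebra.coeff_sum, Finsupp.coe_finsetSum,
      Finset.sum_apply, MonoidAlgebra.coeff_mul, Matrix.sum_apply]
    have h2 : ∀ c, ((E i c).coeff.sum fun a r => (E c j).coeff.sum fun b r' =>
        if a * b = h then r * r' else 0)
        = ∑ a ∈ S, ∑ b ∈ S, if a * b = h then (E i c).coeff a * (E c j).coeff b else 0 := by
      intro c
      rw [Finsupp.sum_of_support_subset _ (hS i c) _ (by simp [Finsupp.sum])]
      refine sum_congr rfl fun a _ => ?_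
      rw [Finsupp.sum_of_support_subset _ (hS c j) _ (by simp)]
    simp only [h2]
    rw [sum_comm]
    refine sum_congr rfl fun a _ => ?_
    rw [sum_comm]
    refine sum_congr rfl fun b _ => ?_
    split_ifs <;> simp [he, Matrix.mul_apply]
  have h0 : ∀ h, h ∉ S → e h = 0 := by
    intro h hh
    ext i j
    exact Finsupp.notMem_support_iff.1 fun h' => hh (hS i j h')
  let T := S ∪ (S ×ˢ S).image fun x => x.1 * x.2
  calc _ = ∑ a ∈ S, ∑ b ∈ S, ∑ h ∈ T, (if a * b = h then e a * e b else 0) * f h := by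
        refine sum_congr rfl fun a ha => ?_
        rw [mul_sum]
        refine sum_congr rfl fun b hb => ?_
        have : a * b ∈ T := mem_union_right _ (mem_image.2 ⟨(a, b), mem_product.2 ⟨ha, hb⟩, rfl⟩)
        simp [this, mul_assoc]
    _ = ∑ h ∈ T, e h * f h := by
        simp only [fun a => sum_comm (s := S) (t := T)
          (f := fun b h => (if a * b = h then e a * e b else 0) * f h)]
        rw [sum_comm]
        refine sum_congr rfl fun h _ => ?_
        rw [h1 h, sum_mul]
        simp only [sum_mul]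
    _ = _ := (sum_subset subset_union_left fun h _ hh => by rw [h0 h hh, zero_mul]).symm

theorem bass (q : ℕ) (e : Matrix (Fin q) (Fin q) (MonoidAlgebra ℂ G)) (he : e * e = e) :
    ∃ F : Finset (ConjClasses G), (∀ C ∈ F, ∀ g ∈ C.carrier, IsOfFinOrder g) ∧
      ∀ C ∉ F, HasSum (fun g : C.carrier => ∑ i, (e i i).coeff g) 0 := by
  let S₀ : Finset G := insert 1 (univ.biUnion fun x : Fin q × Fin q => (e x.1 x.2).coeff.support)
  let S : Finset G := S₀ ∪ S₀.image (·⁻¹)
  have h1 : (1 : G) ∈ S := by simp [S, S₀]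
  have hS : ∀ a ∈ S, a⁻¹ ∈ S := by
    intro a ha
    rcases mem_union.1 ha with h | h
    · exact mem_union_right _ (mem_image.2 ⟨a, h, rfl⟩)
    · obtain ⟨b, hb, rfl⟩ := mem_image.1 h
      exact mem_union_left _ (by simpa using hb)
  have hsub : ∀ i j, (e i j).coeff.support ⊆ S := fun i j a ha =>
    mem_union_left _ (mem_insert_of_mem (mem_biUnion.2 ⟨(i, j), mem_univ _, ha⟩))
  refine ⟨(S.filter IsOfFinOrder).image ConjClasses.mk, fun C hC g hg => ?_, fun C hC => ?_⟩
  · obtain ⟨a, ha, rfl⟩ := mem_image.1 hC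
    rw [ConjClasses.mem_carrier_iff_mk_eq, ConjClasses.mk_eq_mk_iff_isConj] at hg
    exact hg.symm.isOfFinOrder (mem_filter.1 ha).2
  · obtain ⟨g, rfl⟩ := ConjClasses.exists_rep C
    have hmem : ∀ a, a ∈ (ConjClasses.mk g).carrier ↔ ∃ x, x * a * x⁻¹ = g := by
      intro a
      rw [ConjClasses.mem_carrier_iff_mk_eq, ConjClasses.mk_eq_mk_iff_isConj, isConj_iff]
    have hz : ∑ a ∈ S with ∃ x, x * a * x⁻¹ = g, ∑ i, (e i i).coeff a = 0 := by
      by_cases hg : IsOfFinOrder g
      · refine sum_eq_zero fun a ha => absurd ?_ hC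
        obtain ⟨ha, hx⟩ := mem_filter.1 ha
        have h2 : IsConj a g := isConj_iff.2 hx
        exact mem_image.2 ⟨a, mem_filter.2 ⟨ha, h2.symm.isOfFinOrder hg⟩,
          ConjClasses.mk_eq_mk_iff_isConj.2 h2⟩
      · exact trace_eq_zero h1 hS (merge_of_idem e he hsub) hg
    rw [← hz]
    have h3 : HasSum ((ConjClasses.mk g).carrier.indicator fun a => ∑ i, (e i i).coeff a)
        (∑ a ∈ S with ∃ x, x * a * x⁻¹ = g,
          (ConjClasses.mk g).carrier.indicator (fun a => ∑ i, (e i i).coeff a) a) := by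
      apply hasSum_sum_of_ne_finset_zero
      intro a ha
      by_cases h : a ∈ (ConjClasses.mk g).carrier
      · rw [Set.indicator_of_mem h]
        refine sum_eq_zero fun i _ => Finsupp.notMem_support_iff.1 fun h' => ha ?_
        exact mem_filter.2 ⟨hsub i i h', (hmem a).1 h⟩
      · exact Set.indicator_of_notMem h _
    rw [sum_congr rfl fun a ha => Set.indicator_of_mem ((hmem a).2 (mem_filter.1 ha).2) _] at h3
    exact hasSum_subtype_iff_indicator.2 h3

end Vale.Agent.P184
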