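import Vale.Agent.P184.Cochain

/-! Exterior algebra tools: wedge of a list, contraction, Pfaffian functional. -/

namespace Vale.Agent.P184

open List ExteriorAlgebra

variable {M M' X : Type*} [AddCommGroup M] [Module ℝ M] [AddCommGroup M'] [Module ℝ M']

/-- Wedge product of a list. -/
noncomputable def wedge (l : List M) : ExteriorAlgebra ℝ M := (l.map (ι ℝ)).prod

/-- Contraction with a linear form. -/
noncomputable def ctr (d : Module.Dual ℝ M) : ExteriorAlgebra ℝ M →ₗ[ℝ] ExteriorAlgebra ℝ M :=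
  CliffordAlgebra.contractLeft d

@[simp] theorem wedge_nil : wedge ([] : List M) = 1 := rfl

theorem wedge_cons (a : M) (l : List M) : wedge (a :: l) = ι ℝ a * wedge l := by
  simp [wedge]

theorem wedge_append (l l' : List M) : wedge (l ++ l') = wedge l * wedge l' := by
  simp [wedge]

theorem ι_swap (a b : M) (z : ExteriorAlgebra ℝ M) :
    ι ℝ a * (ι ℝ b * z) = -(ι ℝ b * (ι ℝ a * z)) := by
  rw [← mul_assoc, ← mul_assoc, eq_neg_iff_add_eq_zero, ← add_mul, ι_add_mul_swap, zero_mul]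

theorem wedge_mul_ι (l : List M) (a : M) (z : ExteriorAlgebra ℝ M) :
    wedge l * (ι ℝ a * z) = ((-1 : ℝ) ^ l.length) • (ι ℝ a * (wedge l * z)) := by
  induction l with
  | nil => simp
  | cons b l ih =>
    rw [wedge_cons, mul_assoc, ih, mul_smul_comm, ι_swap, length_cons, pow_succ, mul_assoc]
    simp

theorem wedge_snoc (l : List M) (a : M) :
    wedge (l ++ [a]) = ((-1 : ℝ) ^ l.length) • (ι ℝ a * wedge l) := by
  have := wedge_mul_ι l a 1
  simpa [wedge_append, wedge_cons] using this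

theorem ι_mul_wedge {a : M} {l : List M} (h : a ∈ l) : ι ℝ a * wedge l = 0 := by
  induction l with
  | nil => simp at h
  | cons b l ih =>
    rw [wedge_cons]
    rcases mem_cons.1 h with rfl | h
    · rw [← mul_assoc, ι_sq_zero, zero_mul]
    · rw [ι_swap, ih h, mul_zero, neg_zero]

theorem wedge_eq_zero {l : List M} (s : Finset M) (hs : s.card < l.length)
    (h : ∀ a ∈ l, a ∈ Submodule.span ℝ (s : Set M)) : wedge l = 0 := by
  have h1 : wedge l = ιMulti ℝ l.length l.get := by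
    rw [ιMulti_apply, wedge]
    congr 1
    apply List.ext_getElem <;> simp
  rw [h1]
  apply AlternatingMap.map_linearDependent
  intro hli
  have := linearIndependent_le_span_aux' l.get hli (s : Set M) (by
    rintro _ ⟨i, rfl⟩
    exact h _ (List.get_mem l i))
  simp at this
  omega

theorem map_wedge (f : M →ₗ[ℝ] M') (l : List M) : map f (wedge l) = wedge (l.map f) := by
  induction l with
  | nil => simp
  | cons a l ih => simp [wedge_cons, ih]

theorem ctr_ι_mul (d : Module.Dual ℝ M) (a : M) (z : ExteriorAlgebra ℝ M) :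
    ctr d (ι ℝ a * z) = d a • z - ι ℝ a * ctr d z :=
  CliffordAlgebra.contractLeft_ι_mul d a z

theorem ctr_ctr (d : Module.Dual ℝ M) (z : ExteriorAlgebra ℝ M) : ctr d (ctr d z) = 0 :=
  CliffordAlgebra.contractLeft_contractLeft d z

theorem ctr_algebraMap (d : Module.Dual ℝ M) (r : ℝ) :
    ctr d (algebraMap ℝ (ExteriorAlgebra ℝ M) r) = 0 :=
  CliffordAlgebra.contractLeft_algebraMap _ d r

theorem ctr_lin (d d' : Module.Dual ℝ M) (c : ℝ) (z : ExteriorAlgebra ℝ M) :
    ctr (d + c • d') z = ctr d z + c • ctr d' z := by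
  simp [ctr]

theorem ctr_smul (d' : Module.Dual ℝ M) (c : ℝ) (z : ExteriorAlgebra ℝ M) :
    ctr (c • d') z = c • ctr d' z := by
  simp [ctr]

theorem map_ctr (f : M →ₗ[ℝ] M') (d : Module.Dual ℝ M') (z : ExteriorAlgebra ℝ M) :
    map f (ctr (d ∘ₗ f) z) = ctr d (map f z) := by
  induction z using CliffordAlgebra.left_induction with
  | algebraMap r => rw [ctr_algebraMap, AlgHom.commutes, ctr_algebraMap, map_zero]
  | add x y hx hy => simp only [map_add, hx, hy]
  | ι_mul x m hx =>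
    have h1 := ctr_ι_mul (d ∘ₗ f) m x
    have h2 := ctr_ι_mul d (f m) (map f x)
    change map f (ctr (d ∘ₗ f) (ι ℝ m * x)) = ctr d (map f (ι ℝ m * x))
    rw [h1, map_mul, map_apply_ι, h2, map_sub, map_mul, map_apply_ι, hx, map_smul]
    rfl

theorem del_wedge (d : Module.Dual ℝ M) (f : X → M) (hf : ∀ x, d (f x) = 1)
    (Φ : ExteriorAlgebra ℝ M →ₗ[ℝ] ℝ) (l : List X) :
    del (fun l => Φ (wedge (l.map f))) l = Φ (ctr d (wedge (l.map f))) := by
  induction l generalizing Φ with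
  | nil =>
    have := ctr_algebraMap d 1
    rw [map_one] at this
    simp [this]
  | cons a l ih =>
    have := ih (Φ ∘ₗ LinearMap.mulLeft ℝ (ι ℝ (f a)))
    simp only [LinearMap.comp_apply, LinearMap.mulLeft_apply] at this
    rw [del_cons]
    simp only [map_cons, wedge_cons]
    rw [this, ctr_ι_mul, hf, one_smul, map_sub]

theorem alt_proof {B : LinearMap.BilinForm ℝ M} (hB : ∀ u, B u u = 0) :
    B.toQuadraticMap = (0 : QuadraticForm ℝ M) - 0 := by
  ext u
  simp [hB]

/-- Exponential of the contraction with an alternating form. -/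
noncomputable def cf (B : LinearMap.BilinForm ℝ M) (hB : ∀ u, B u u = 0) :
    ExteriorAlgebra ℝ M →ₗ[ℝ] ExteriorAlgebra ℝ M := CliffordAlgebra.changeForm (alt_proof hB)

theorem cf_ι_mul (B : LinearMap.BilinForm ℝ M) (hB : ∀ u, B u u = 0) (a : M)
    (z : ExteriorAlgebra ℝ M) :
    cf B hB (ι ℝ a * z) = ι ℝ a * cf B hB z - ctr (B a) (cf B hB z) :=
  CliffordAlgebra.changeForm_ι_mul _ a z

theorem cf_ctr (B : LinearMap.BilinForm ℝ M) (hB : ∀ u, B u u = 0) (d : Module.Dual ℝ M)
    (z : ExteriorAlgebra ℝ M) : cf B hB (ctr d z) = ctr d (cf B hB z) :=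
  CliffordAlgebra.changeForm_contractLeft _ d z

theorem cf_algebraMap (B : LinearMap.BilinForm ℝ M) (hB : ∀ u, B u u = 0) (r : ℝ) :
    cf B hB (algebraMap ℝ _ r) = algebraMap ℝ _ r :=
  CliffordAlgebra.changeForm_algebraMap _ r

theorem map_cf (f : M →ₗ[ℝ] M') (B : LinearMap.BilinForm ℝ M) (hB : ∀ u, B u u = 0)
    (B' : LinearMap.BilinForm ℝ M') (hB' : ∀ u, B' u u = 0) (h : ∀ a, B a = B' (f a) ∘ₗ f)
    (z : ExteriorAlgebra ℝ M) : map f (cf B hB z) = cf B' hB' (map f z) := by
  induction z using CliffordAlgebra.left_induction with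
  | algebraMap r => rw [cf_algebraMap, AlgHom.commutes, cf_algebraMap]
  | add x y hx hy => simp only [map_add, hx, hy]
  | ι_mul x m hx =>
    change map f (cf B hB (ι ℝ m * x)) = cf B' hB' (map f (ι ℝ m * x))
    rw [cf_ι_mul, map_mul, map_apply_ι, cf_ι_mul, map_sub, map_mul, map_apply_ι, h, map_ctr, hx]

/-- The Pfaffian functional. -/
noncomputable def Pf (B : LinearMap.BilinForm ℝ M) (hB : ∀ u, B u u = 0) :
    ExteriorAlgebra ℝ M →ₗ[ℝ] ℝ := algebraMapInv.toLinearMap ∘ₗ cf B hB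

theorem inv_ι (a : M) : algebraMapInv (ι ℝ a) = (0 : ℝ) := by
  simp [algebraMapInv]

theorem Pf_one (B : LinearMap.BilinForm ℝ M) (hB : ∀ u, B u u = 0) : Pf B hB 1 = 1 := by
  have := cf_algebraMap B hB 1
  rw [map_one] at this
  simp [Pf, this]

theorem Pf_ι_mul (B : LinearMap.BilinForm ℝ M) (hB : ∀ u, B u u = 0) (a : M)
    (z : ExteriorAlgebra ℝ M) : Pf B hB (ι ℝ a * z) = - Pf B hB (ctr (B a) z) := by
  simp [Pf, cf_ι_mul, cf_ctr, inv_ι]

theorem inv_map (f : M →ₗ[ℝ] M') (z : ExteriorAlgebra ℝ M) :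
    algebraMapInv (map f z) = (algebraMapInv z : ℝ) := by
  have : (algebraMapInv : ExteriorAlgebra ℝ M' →ₐ[ℝ] ℝ).comp (map f) = algebraMapInv := by
    ext a
    simp [inv_ι]
  exact DFunLike.congr_fun this z

theorem Pf_map (f : M →ₗ[ℝ] M') (B : LinearMap.BilinForm ℝ M) (hB : ∀ u, B u u = 0)
    (B' : LinearMap.BilinForm ℝ M') (hB' : ∀ u, B' u u = 0) (h : ∀ a, B a = B' (f a) ∘ₗ f)
    (z : ExteriorAlgebra ℝ M) : Pf B' hB' (map f z) = Pf B hB z := by
  simp only [Pf, LinearMap.comp_apply, AlgHom.toLinearMap_apply]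
  rw [← map_cf f B hB B' hB' h, inv_map]

/-- Descent lemma. -/
theorem map_eq_of_kill (T : M →ₗ[ℝ] M) (Φ : ExteriorAlgebra ℝ M →ₗ[ℝ] ℝ)
    (h : ∀ a z, Φ (ι ℝ (T a - a) * z) = 0) (y : ExteriorAlgebra ℝ M) : Φ (map T y) = Φ y := by
  suffices H : ∀ l : List M, Φ (wedge l * map T y) = Φ (wedge l * y) by simpa using H []
  induction y using CliffordAlgebra.left_induction with
  | algebraMap r => intro l; rw [AlgHom.commutes]
  | add x y hx hy => intro l; simp only [map_add, mul_add, hx, hy]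
  | ι_mul x m hx =>
    intro l
    change Φ (wedge l * map T (ι ℝ m * x)) = Φ (wedge l * (ι ℝ m * x))
    have h1 := hx (l ++ [m])
    rw [wedge_append, wedge_cons, wedge_nil, mul_one, mul_assoc, mul_assoc] at h1
    rw [map_mul (ExteriorAlgebra.map T), map_apply_ι, ← h1, ← sub_eq_zero, ← map_sub, ← mul_sub, ← sub_mul, ← map_sub,
      wedge_mul_ι, map_smul, h, smul_zero]

end Vale.Agent.P184
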