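import Vale.Agent.P184.Cocycle

/-! Affine points over a set, barycentres, geometry of flags. -/

namespace Vale.Agent.P184

open List

variable {V : Type*}

/-- Formal affine combinations. -/
abbrev Pt (V : Type*) := {p : V →₀ ℝ // eps V p = 1}

/-- A vertex as a point. -/
noncomputable def vt (v : V) : Pt V := ⟨Finsupp.single v 1, by simp⟩

/-- Push forward of points. -/
noncomputable def pmap (γ : V → V) (p : Pt V) : Pt V :=
  ⟨Finsupp.lmapDomain ℝ ℝ γ p.1, by rw [← LinearMap.comp_apply, eps_comp, p.2]⟩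

theorem pmap_vt (γ : V → V) (v : V) : pmap γ (vt v) = vt (γ v) := by
  apply Subtype.ext
  simp [pmap, vt]

theorem lin_sum (f : (V →₀ ℝ) →ₗ[ℝ] ℝ) (l : List (Pt V)) :
    f (l.map Subtype.val).sum = (l.map fun p => f p.1).sum := by
  induction l with
  | nil => simp
  | cons a l ih => simp only [map_cons, sum_cons, map_add, ih]

theorem eps_sum (l : List (Pt V)) : eps V (l.map Subtype.val).sum = l.length := by
  induction l with
  | nil => simp
  | cons a l ih =>
    simp only [map_cons, sum_cons, map_add, ih, a.2, length_cons]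
    push_cast
    ring

open Classical in
/-- Barycentre of a list of points. -/
noncomputable def bary (v₀ : V) (l : List (Pt V)) : Pt V :=
  if h : l = [] then vt v₀ else ⟨(l.length : ℝ)⁻¹ • (l.map Subtype.val).sum, by
    rw [map_smul, eps_sum, smul_eq_mul, inv_mul_cancel₀]
    simpa using h⟩

theorem bary_val (v₀ : V) {l : List (Pt V)} (h : l ≠ []) :
    (bary v₀ l).1 = (l.length : ℝ)⁻¹ • (l.map Subtype.val).sum := by
  rw [bary, dif_neg h]

theorem bary_snoc (v₀ : V) (a : Pt V) (l : List (Pt V)) :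
    bary v₀ (l ++ [a]) = bary v₀ (a :: l) := by
  apply Subtype.ext
  rw [bary_val _ (by simp), bary_val _ (by simp)]
  simp only [length_append, length_cons, length_nil, map_append, map_cons, map_nil, sum_append,
    sum_cons, sum_nil, add_zero, zero_add]
  rw [add_comm a.1]

theorem bary_map (v₀ : V) (γ : V → V) (l : List (Pt V)) (h : l ≠ []) :
    bary v₀ (l.map (pmap γ)) = pmap γ (bary v₀ l) := by
  apply Subtype.ext
  rw [bary_val _ (by simpa using h), pmap]
  simp only
  rw [bary_val _ h, map_smul, length_map, map_list_sum, List.map_map, List.map_map]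
  rfl

/-- The cochain on points attached to a functional on the exterior algebra. -/
noncomputable def phi (Φ : ExteriorAlgebra ℝ (V →₀ ℝ) →ₗ[ℝ] ℝ) (l : List (Pt V)) : ℝ :=
  Φ (wedge (l.map Subtype.val))

theorem ι_sum_mul_wedge {M : Type*} [AddCommGroup M] [Module ℝ M] (l l' : List M)
    (h : ∀ a ∈ l', a ∈ l) : ExteriorAlgebra.ι ℝ l'.sum * wedge l = 0 := by
  induction l' with
  | nil => simp
  | cons a l' ih =>
    rw [sum_cons, map_add, add_mul, ι_mul_wedge (h a (by simp)),
      ih (fun b hb => h b (by simp [hb])), add_zero]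

theorem sd_phi (v₀ : V) (Φ : ExteriorAlgebra ℝ (V →₀ ℝ) →ₗ[ℝ] ℝ) (l : List (Pt V)) :
    sd (bary v₀) (phi Φ) l = phi Φ l := by
  induction hn : l.length generalizing l Φ with
  | zero =>
    rw [length_eq_zero_iff] at hn
    subst hn
    simp
  | succ n ih =>
    have hl : l ≠ [] := by rintro rfl; simp at hn
    rw [sd_of_length _ _ hn]
    set b := bary v₀ l with hb
    have h1 : del (sd (bary v₀) fun l' => phi Φ (b :: l')) l
        = del (phi (Φ ∘ₗ LinearMap.mulLeft ℝ (ExteriorAlgebra.ι ℝ b.1))) l := by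
      apply del_congr
      intro l₀ _ h2
      rw [← ih _ l₀ (by omega)]
      congr 1
    have h2 := del_wedge (eps V) Subtype.val (fun p : Pt V => p.2)
      (Φ ∘ₗ LinearMap.mulLeft ℝ (ExteriorAlgebra.ι ℝ b.1)) l
    have h3 : ExteriorAlgebra.ι ℝ b.1 * wedge (l.map Subtype.val) = 0 := by
      rw [hb, bary_val _ hl, map_smul, smul_mul_assoc, ι_sum_mul_wedge _ _ (fun _ h => h),
        smul_zero]
    have h4 := ctr_ι_mul (eps V) b.1 (wedge (l.map Subtype.val))
    rw [h3, map_zero, b.2, one_smul, eq_comm, sub_eq_zero] at h4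
    rw [h1]
    unfold phi
    rw [h2, LinearMap.comp_apply, LinearMap.mulLeft_apply, ← h4]

theorem sdN_phi (v₀ : V) (Φ : ExteriorAlgebra ℝ (V →₀ ℝ) →ₗ[ℝ] ℝ) (r : ℕ) :
    sdN (bary v₀) r (phi Φ) = phi Φ := by
  induction r with
  | zero => rfl
  | succ r ih =>
    funext l
    rw [sdN, ih, sd_phi]

theorem del_sdN_pr (v₀ : V) (Φ : ExteriorAlgebra ℝ (V →₀ ℝ) →ₗ[ℝ] ℝ)
    (hΦ : ∀ y, Φ (ctr (eps V) y) = 0) (r : ℕ) (Λ : Pt V → Pt V) (l : List (Pt V)) :
    del (sdN (bary v₀) r (pr Λ (phi Φ))) l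
      = sdN (bary v₀) r (fun l' => phi Φ (l'.map Λ)) l - phi Φ l := by
  have h1 : del (phi Φ) = fun _ => 0 := by
    funext l
    exact (del_wedge (eps V) Subtype.val (fun p : Pt V => p.2) Φ l).trans (hΦ _)
  have h2 : del (pr Λ (phi Φ)) = fun l' => phi Φ (l'.map Λ) - phi Φ l' := by
    funext l'
    rw [← del_pr, h1, pr_zero, add_zero]
  rw [← sdN_del, h2, sdN_sub, sdN_phi]

theorem phi_map {Φ : ExteriorAlgebra ℝ (V →₀ ℝ) →ₗ[ℝ] ℝ} {γ : V → V}
    (h : ∀ y, Φ (ExteriorAlgebra.map (Finsupp.lmapDomain ℝ ℝ γ) y) = Φ y) (l : List (Pt V)) :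
    phi Φ (l.map (pmap γ)) = phi Φ l := by
  unfold phi
  rw [← h (wedge (l.map Subtype.val)), map_wedge, List.map_map, List.map_map]
  rfl

/-! ### Geometry of flags -/

theorem Flag.length_eq {X : Type*} {b : List X → X} {l' l : List X} (h : Flag b l' l) :
    l'.length = l.length := by
  induction h with
  | nil => rfl
  | cons _ _ h3 ih => rw [length_cons, ih, h3]

theorem bary_lower (v₀ : V) (f : (V →₀ ℝ) →ₗ[ℝ] ℝ) {l : List (Pt V)} (hl : l ≠ []) {lo : ℝ}
    (h : ∀ x ∈ l, lo ≤ f x.1) : lo ≤ f (bary v₀ l).1 := by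
  have hn : (0 : ℝ) < l.length := by simpa [List.length_pos_iff] using hl
  rw [bary_val _ hl, map_smul, lin_sum, smul_eq_mul, ← div_eq_inv_mul, le_div_iff₀ hn]
  have := List.card_nsmul_le_sum (l.map fun p => f p.1) lo (by
    intro x hx
    obtain ⟨y, hy, rfl⟩ := mem_map.1 hx
    exact h y hy)
  simpa [mul_comm] using this

theorem Flag.lower {v₀ : V} {l' l : List (Pt V)} (h : Flag (bary v₀) l' l)
    (f : (V →₀ ℝ) →ₗ[ℝ] ℝ) {lo : ℝ} (h1 : ∀ x ∈ l, lo ≤ f x.1) : ∀ x ∈ l', lo ≤ f x.1 := by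
  induction h with
  | nil => simp
  | cons _ h2 h3 ih =>
    intro x hx
    rcases mem_cons.1 hx with rfl | hx
    · exact bary_lower v₀ f (by rintro rfl; simp at h3) h1
    · exact ih (fun y hy => h1 y (h2.subset hy)) x hx

theorem bary_close (v₀ : V) (f : (V →₀ ℝ) →ₗ[ℝ] ℝ) {l : List (Pt V)} {m : ℕ}
    (hm : l.length ≤ m + 1) {d : ℝ} (h : ∀ x ∈ l, ∀ y ∈ l, f x.1 - f y.1 ≤ d) {z : Pt V}
    (hz : z ∈ l) : f (bary v₀ l).1 - f z.1 ≤ m / (m + 1) * d := by
  have hl : l ≠ [] := by rintro rfl; simp at hz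
  have hd : 0 ≤ d := by simpa using h z hz z hz
  have hn : (0 : ℝ) < l.length := by simpa [List.length_pos_iff] using hl
  have h1 : (l.map fun p => f p.1).sum ≤ l.length * f z.1 + (l.length - 1) * d := by
    obtain ⟨s, t, rfl⟩ := List.append_of_mem hz
    have hs := List.sum_le_card_nsmul (s.map fun p => f p.1) (f z.1 + d) (by
      intro x hx
      obtain ⟨y, hy, rfl⟩ := mem_map.1 hx
      have := h y (by simp [hy]) z hz
      linarith)
    have ht := List.sum_le_card_nsmul (t.map fun p => f p.1) (f z.1 + d) (by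
      intro x hx
      obtain ⟨y, hy, rfl⟩ := mem_map.1 hx
      have := h y (by simp [hy]) z hz
      linarith)
    simp only [length_map, nsmul_eq_mul] at hs ht
    simp only [map_append, map_cons, sum_append, sum_cons, length_append, length_cons]
    push_cast
    linarith
  have h2 : (l.length : ℝ) ≤ m + 1 := by exact_mod_cast hm
  rw [bary_val _ hl, map_smul, lin_sum, smul_eq_mul, ← div_eq_inv_mul, sub_le_iff_le_add,
    div_le_iff₀ hn]
  have h3 : (l.length - 1 : ℝ) ≤ m / (m + 1) * l.length := by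
    rw [div_mul_eq_mul_div, le_div_iff₀ (by positivity)]
    nlinarith
  nlinarith

theorem Flag.osc {v₀ : V} {l' l : List (Pt V)} (h : Flag (bary v₀) l' l) {m : ℕ}
    (hm : l.length ≤ m + 1) (f : (V →₀ ℝ) →ₗ[ℝ] ℝ) {d : ℝ}
    (h1 : ∀ x ∈ l, ∀ y ∈ l, f x.1 - f y.1 ≤ d) :
    ∀ x ∈ l', ∀ y ∈ l', f x.1 - f y.1 ≤ m / (m + 1) * d := by
  induction h with
  | nil => simp
  | @cons l' l₀ l h0 h2 h3 ih =>
    have hl : l ≠ [] := by rintro rfl; simp at h3
    obtain ⟨z, hz⟩ := List.exists_mem_of_ne_nil l hl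
    have hd : 0 ≤ d := by simpa using h1 z hz z hz
    have hA : ∀ y ∈ l', f (bary v₀ l).1 - m / (m + 1) * d ≤ f y.1 := by
      apply h0.lower f
      intro y hy
      have := bary_close v₀ f hm h1 (h2.subset hy)
      linarith
    have hB : ∀ y ∈ l', (-f) (bary v₀ l).1 - m / (m + 1) * d ≤ (-f) y.1 := by
      apply h0.lower (-f)
      intro y hy
      have := bary_close v₀ (-f) hm (d := d) (fun x hx y hy => by
        have := h1 y hy x hx
        simp only [LinearMap.neg_apply]
        linarith) (h2.subset hy)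
      linarith
    intro x hx y hy
    rcases mem_cons.1 hx with rfl | hx <;> rcases mem_cons.1 hy with rfl | hy
    · rw [sub_self]
      positivity
    · have := hA y hy
      linarith
    · have := hB x hx
      simp only [LinearMap.neg_apply] at this
      linarith
    · exact ih (by omega) (fun a ha b hb => h1 a (h2.subset ha) b (h2.subset hb)) x hx y hy

theorem FlagN.length_eq {X : Type*} {b : List X → X} {r : ℕ} {l' l : List X}
    (h : FlagN b r l' l) : l'.length = l.length := by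
  induction r generalizing l with
  | zero => rw [show l' = l from h]
  | succ r ih =>
    obtain ⟨l₁, h1, h2⟩ := h
    rw [ih h2, h1.length_eq]

theorem FlagN.lower {v₀ : V} {r : ℕ} {l' l : List (Pt V)} (h : FlagN (bary v₀) r l' l)
    (f : (V →₀ ℝ) →ₗ[ℝ] ℝ) {lo : ℝ} (h1 : ∀ x ∈ l, lo ≤ f x.1) : ∀ x ∈ l', lo ≤ f x.1 := by
  induction r generalizing l with
  | zero => rw [show l' = l from h]; exact h1
  | succ r ih =>
    obtain ⟨l₁, h2, h3⟩ := h
    exact ih h3 (h2.lower f h1)

theorem FlagN.osc {v₀ : V} {r : ℕ} {l' l : List (Pt V)} (h : FlagN (bary v₀) r l' l) {m : ℕ}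
    (hm : l.length ≤ m + 1) (f : (V →₀ ℝ) →ₗ[ℝ] ℝ) {d : ℝ}
    (h1 : ∀ x ∈ l, ∀ y ∈ l, f x.1 - f y.1 ≤ d) :
    ∀ x ∈ l', ∀ y ∈ l', f x.1 - f y.1 ≤ (m / (m + 1)) ^ r * d := by
  induction r generalizing l d with
  | zero => rw [show l' = l from h]; simpa using h1
  | succ r ih =>
    obtain ⟨l₁, h2, h3⟩ := h
    have := ih h3 (by rw [h2.length_eq]; exact hm) (h2.osc hm f h1)
    rw [pow_succ, mul_assoc]
    exact this

/-- Nonnegative points supported on a list of vertices. -/
def Sup (l : List V) (p : V →₀ ℝ) : Prop := (∀ x, 0 ≤ p x) ∧ ∀ x, x ∉ l → p x = 0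

theorem FlagN.sup {v₀ : V} {r : ℕ} {l' : List (Pt V)} {l : List V}
    (h : FlagN (bary v₀) r l' (l.map vt)) : ∀ p ∈ l', Sup l p.1 := by
  classical
  intro p hp
  have h1 : ∀ x, 0 ≤ p.1 x := fun x => h.lower (Finsupp.lapply x) (lo := 0) (by
    intro y hy
    obtain ⟨v, _, rfl⟩ := mem_map.1 hy
    simp only [vt, Finsupp.lapply_apply, Finsupp.single_apply]
    split_ifs <;> simp) p hp
  refine ⟨h1, fun x hx => le_antisymm ?_ (h1 x)⟩
  have := h.lower (-Finsupp.lapply x) (lo := 0) (by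
    intro y hy
    obtain ⟨v, hv, rfl⟩ := mem_map.1 hy
    have : v ≠ x := by rintro rfl; exact hx hv
    simp [vt, this]) p hp
  simpa using this

end Vale.Agent.P184
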