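import Vale.Agent.P184.Label

/-! The subdivided labelled cocycle vanishes on cells without large clusters. -/

namespace Vale.Agent.P184

open Finset Classical

variable {V : Type*}

theorem Sup.mem {l : List V} {p : V →₀ ℝ} (h : Sup l p) {y : V} (hy : y ∈ p.support) : y ∈ l := by
  by_contra h'
  exact Finsupp.mem_support_iff.1 hy (h.2 y h')

namespace Gr

variable {Γ : Gr V} {m k : ℕ}

theorem cell_ball {x : V} {l : List V} (hl : l ∈ paths Γ.N m x) {y z : V} (hy : y ∈ x :: l)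
    (hz : z ∈ x :: l) : z ∈ Γ.ball (2 * m) y :=
  ball_trans' (ball_symm (mem_ball_of_paths hl y hy)) (mem_ball_of_paths hl z hz) (by omega)

theorem score_le (ω : V → Fin (m * k + 1)) (a : V) {p : Pt V} (hp : ∀ x, 0 ≤ p.1 x) {c : ℝ}
    (h : ∀ x ∈ p.1.support, c ≤ Γ.dd (3 * m) a x) : Γ.score m k ω a p ≤ (ω a : ℕ) - k * c := by
  have := lf_mono (d := fun _ => c) (d' := fun x => Γ.dd (3 * m) a x) hp h
  rw [lf_const, p.2, one_mul] at this
  unfold score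
  gcongr

theorem le_score (ω : V → Fin (m * k + 1)) (a : V) {p : Pt V} (hp : ∀ x, 0 ≤ p.1 x) {c : ℝ}
    (h : ∀ x ∈ p.1.support, Γ.dd (3 * m) a x ≤ c) : (ω a : ℕ) - k * c ≤ Γ.score m k ω a p := by
  have := lf_mono (d' := fun _ => c) (d := fun x => Γ.dd (3 * m) a x) hp h
  rw [lf_const, p.2, one_mul] at this
  unfold score
  gcongr

theorem amax_sub_near {ω : V → Fin (m * k + 1)} {x : V} {l : List V} (hl : l ∈ paths Γ.N m x)
    {p p' : Pt V} (hp' : Sup (x :: l) p'.1)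
    (h : ∀ a, |Γ.score m k ω a p - Γ.score m k ω a p'| ≤ 1 / 2) {a : V}
    (ha : a ∈ Γ.amax m k ω p') : a ∈ Γ.near m k ω x p := by
  obtain ⟨ha1, ha2⟩ := mem_amax.1 ha
  obtain ⟨y, hy, ha1⟩ := mem_nbh.1 ha1
  refine mem_near.2 ⟨ball_trans' (mem_ball_of_paths hl y (hp'.mem hy)) ha1 (by omega),
    fun a' _ => ?_⟩
  have h1 : Γ.score m k ω a' p' ≤ Γ.score m k ω a p' := by
    by_cases h2 : a' ∈ Γ.nbh (3 * m) p'
    · exact ha2 a' h2
    · refine le_trans ?_ (ha2 y (mem_nbh.2 ⟨y, hy, mem_ball_self _ _⟩))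
      have h3 := score_le (Γ := Γ) ω a' hp'.1 (c := (3 * m : ℕ)) (fun z hz => by
        rw [dd_eq_of_not_mem fun h4 => h2 (mem_nbh.2 ⟨z, hz, ball_symm h4⟩)])
      have h4 := le_score (Γ := Γ) ω y hp'.1 (c := (2 * m : ℕ)) (fun z hz => by
        exact_mod_cast dd_le_iff.2 (Or.inr (cell_ball hl (hp'.mem hy) (hp'.mem hz))))
      have h5 : ((ω a' : ℕ) : ℝ) ≤ (m * k : ℕ) := by exact_mod_cast Nat.lt_succ_iff.1 (ω a').2
      have h6 : (0 : ℝ) ≤ (ω y : ℕ) := Nat.cast_nonneg _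
      push_cast at h3 h4 h5
      linarith
  have h2 := abs_le.1 (h a)
  have h3 := abs_le.1 (h a')
  linarith [h2.1, h3.2]

theorem clus_iff {ω : V → Fin (m * k + 1)} {x : V} {l : List V} (hl : l ∈ paths Γ.N m x)
    {y z : V} (hy : y ∈ x :: l) (hz : z ∈ x :: l) (hb : Γ.bad m k ω z) {w : V}
    (h : Γ.clus m k ω z w) : Γ.clus m k ω y w :=
  Relation.ReflTransGen.head ⟨cell_ball hl hy hz, hb⟩ h

variable (Γ m k) in
/-- The cell meets a large cluster. -/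
def large (s : ℕ) (ω : V → Fin (m * k + 1)) (c : List V) : Prop :=
  ∃ v ∈ c, Γ.bad m k ω v ∧ ¬ Γ.small m k s ω v

theorem lab_of_large (v₀ : V) {s : ℕ} {ω : V → Fin (m * k + 1)} {x : V} {l : List V}
    (hl : l ∈ paths Γ.N m x) (h : Γ.large m k s ω (x :: l)) {p : Pt V} (hp : Sup (x :: l) p.1) :
    Γ.lab m k v₀ s ω p = Γ.lab1 m k v₀ ω p := by
  obtain ⟨v, hv, hb, hs⟩ := h
  rw [lab, if_neg]
  intro hh
  obtain ⟨y, hy⟩ := p.supp_nonempty
  exact hs fun a b ha hb' => (hh y hy).2 a b (clus_iff hl (hp.mem hy) hv hb ha)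
    (clus_iff hl (hp.mem hy) hv hb hb')

theorem exists_heal_label (v₀ : V) (s : ℕ) (ω : V → Fin (m * k + 1)) {x : V} {l : List V}
    (hl : l ∈ paths Γ.N m x) : ∃ u : Pt V, ∀ p : Pt V, Sup (x :: l) p.1 → Γ.heal m k s ω p →
      Γ.lab m k v₀ s ω p = u := by
  by_cases h : ∃ p : Pt V, Sup (x :: l) p.1 ∧ Γ.heal m k s ω p
  · obtain ⟨p₀, h1, h2⟩ := h
    have key : ∀ p p' : Pt V, Sup (x :: l) p.1 → Γ.heal m k s ω p → Sup (x :: l) p'.1 →
        Γ.heal m k s ω p' → Γ.cl m k s ω p ⊆ Γ.cl m k s ω p' := by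
      intro p p' hp hh hp' hh' w hw
      obtain ⟨-, y, hy, hw⟩ := mem_cl.1 hw
      obtain ⟨z, hz⟩ := p'.supp_nonempty
      have h3 := clus_iff hl (hp'.mem hz) (hp.mem hy) (hh y hy).1 hw
      exact mem_cl.2 ⟨mem_nbh.2 ⟨z, hz, (hh' z hz).2 z w .refl h3⟩, z, hz, h3⟩
    refine ⟨upt v₀ (Γ.cl m k s ω p₀), fun p hp hh => ?_⟩
    rw [lab, if_pos hh, Subset.antisymm (key p p₀ hp hh h1 h2) (key p₀ p h1 h2 hp hh)]
  · exact ⟨vt v₀, fun p hp hh => absurd ⟨p, hp, hh⟩ h⟩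

theorem vanish (v₀ : V) (Φ : ExteriorAlgebra ℝ (V →₀ ℝ) →ₗ[ℝ] ℝ) (hm : 0 < m) {r : ℕ}
    (hr : k * ((m / (m + 1) : ℝ) ^ r * (3 * m : ℕ)) ≤ 1 / 2) {s : ℕ}
    {ω : V → Fin (m * k + 1)} {x : V} {l : List V} (hl : l ∈ paths Γ.N m x)
    (h : ¬ Γ.large m k s ω (x :: l)) :
    sdN (bary v₀) r (fun l' => phi Φ (l'.map (Γ.lab m k v₀ s ω))) ((x :: l).map vt) = 0 := by
  rw [← sdN_zero (bary v₀) r ((x :: l).map vt)]
  apply sdN_congr
  intro l' hF
  have hlen : l'.length = m + 1 := by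
    rw [hF.length_eq]
    simp [length_of_mem_paths hl]
  have hsup := hF.sup
  obtain ⟨p₀, hp₀⟩ := List.exists_mem_of_ne_nil l' (by rintro rfl; simp at hlen)
  obtain ⟨u, hu⟩ := exists_heal_label v₀ s ω hl
  have hclose : ∀ p ∈ l', ∀ p' ∈ l', ∀ a,
      Γ.score m k ω a p - Γ.score m k ω a p' ≤ 1 / 2 := by
    intro p hp p' hp' a
    have := hF.osc (m := m) (by simp [length_of_mem_paths hl])
      (lf fun y => Γ.dd (3 * m) a y) (d := (3 * m : ℕ)) (by
        intro y hy z hz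
        obtain ⟨y, -, rfl⟩ := List.mem_map.1 hy
        obtain ⟨z, -, rfl⟩ := List.mem_map.1 hz
        have h1 : (Γ.dd (3 * m) a y : ℝ) ≤ (3 * m : ℕ) := by exact_mod_cast dd_le _ _ _
        have h2 : (0 : ℝ) ≤ Γ.dd (3 * m) a z := Nat.cast_nonneg _
        simp only [vt, lf_single, one_mul]
        linarith) p' hp' p hp
    have h3 := mul_le_mul_of_nonneg_left this (Nat.cast_nonneg (α := ℝ) k)
    unfold score
    linarith
  obtain ⟨T, hT, hT'⟩ : ∃ T : Finset V, T.card < m ∧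
      ∀ p ∈ l', ¬ Γ.heal m k s ω p → Γ.amax m k ω p ⊆ T := by
    by_cases hg : Γ.good m k ω x l
    · refine ⟨Γ.near m k ω x p₀, hg p₀ (hsup p₀ hp₀), fun p hp _ a ha => ?_⟩
      refine amax_sub_near hl (hsup p hp) (fun a => abs_le.2 ⟨?_, hclose _ hp₀ _ hp a⟩) ha
      have := hclose _ hp _ hp₀ a
      linarith
    · refine ⟨∅, by simpa using hm, fun p hp hh => absurd (fun y hy => ?_) hh⟩
      have hy' := (hsup p hp).mem hy
      have hb : Γ.bad m k ω y := ⟨x, ball_symm (mem_ball_of_paths hl y hy'), l, hl, hg⟩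
      refine ⟨hb, ?_⟩
      by_contra hs
      exact h ⟨y, hy', hb, hs⟩
  unfold phi
  rw [wedge_eq_zero (insert u.1 (T.image fun a => Finsupp.single a 1)), map_zero]
  · refine (card_insert_le _ _).trans_lt ?_
    have := card_image_le (s := T) (f := fun a => Finsupp.single a (1 : ℝ))
    simp only [List.length_map, hlen]
    omega
  · intro w hw
    simp only [List.map_map, List.mem_map, Function.comp] at hw
    obtain ⟨p, hp, rfl⟩ := hw
    by_cases hh : Γ.heal m k s ω p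
    · rw [hu p (hsup p hp) hh]
      exact Submodule.subset_span (by simp)
    · rw [lab, if_neg hh]
      apply upt_mem_span v₀ (amax_nonempty _ _)
      intro a ha
      have := hT' p hp hh ha
      simp only [coe_insert, coe_image, Set.mem_insert_iff, Set.mem_image, mem_coe]
      exact Or.inr ⟨a, this, rfl⟩

theorem eq_of_large (v₀ : V) (Φ : ExteriorAlgebra ℝ (V →₀ ℝ) →ₗ[ℝ] ℝ) (r : ℕ) {s : ℕ}
    {ω : V → Fin (m * k + 1)} {x : V} {l : List V} (hl : l ∈ paths Γ.N m x)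
    (h : Γ.large m k s ω (x :: l)) :
    sdN (bary v₀) r (fun l' => phi Φ (l'.map (Γ.lab m k v₀ s ω))) ((x :: l).map vt)
      = sdN (bary v₀) r (fun l' => phi Φ (l'.map (Γ.lab1 m k v₀ ω))) ((x :: l).map vt) := by
  apply sdN_congr
  intro l' hF
  congr 1
  exact List.map_congr_left fun p hp => lab_of_large v₀ hl h (hF.sup p hp)

end Gr

end Vale.Agent.P184
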